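import Mathlib

/-!
The three-marginal Coulomb optimal transport problem on `d`-dimensional Euclidean space.
-/

namespace Vale.Agent.P121

open MeasureTheory
open scoped ENNReal

/-- `d`-dimensional Euclidean space. -/
abbrev Space (d : ℕ) : Type := EuclideanSpace ℝ (Fin d)

/-- The three-particle Coulomb cost. It has the value `∞` as soon as two of the points coincide
(in `ℝ≥0∞` one has `1 / 0 = ∞`). -/
noncomputable def coulombCost {d : ℕ} (x y z : Space d) : ℝ≥0∞ :=
  1 / edist x y + 1 / edist x z + 1 / edist y z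

/-- `Π(μ, μ, μ)`: the Borel probability measures on `(ℝ^d)³` whose three marginals equal `μ`. -/
def couplings {d : ℕ} (μ : Measure (Space d)) : Set (Measure (Space d × Space d × Space d)) :=
  {π | IsProbabilityMeasure π ∧ π.map (fun p => p.1) = μ ∧ π.map (fun p => p.2.1) = μ ∧
    π.map (fun p => p.2.2) = μ}

/-- The Kantorovich value `ℰ(μ)`. -/
noncomputable def kantorovichValue {d : ℕ} (μ : Measure (Space d)) : ℝ≥0∞ :=
  ⨅ π ∈ couplings μ, ∫⁻ p, coulombCost p.1 p.2.1 p.2.2 ∂π

/-- `(Id, T₂, T₃)_# μ` is a Monge plan: `T₂`, `T₃` are Borel maps that both push `μ` to `μ`. -/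
structure IsMongePair {d : ℕ} (μ : Measure (Space d)) (T₂ T₃ : Space d → Space d) : Prop where
  measurable₂ : Measurable T₂
  measurable₃ : Measurable T₃
  map₂ : μ.map T₂ = μ
  map₃ : μ.map T₃ = μ

/-- The cost `∫ c(x, T₂ x, T₃ x) dμ(x)` of a Monge plan. -/
noncomputable def mongeCost {d : ℕ} (μ : Measure (Space d)) (T₂ T₃ : Space d → Space d) :
    ℝ≥0∞ :=
  ∫⁻ x, coulombCost x (T₂ x) (T₃ x) ∂μ

/-- `μ` admits an optimal Monge plan. -/
def HasOptimalMongePlan {d : ℕ} (μ : Measure (Space d)) : Prop :=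
  ∃ T₂ T₃ : Space d → Space d, IsMongePair μ T₂ T₃ ∧ mongeCost μ T₂ T₃ = kantorovichValue μ

end Vale.Agent.P121
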