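import Mathlib

/-!
Elementary inequalities for the Coulomb force field `v ↦ v / ‖v‖ ^ 3` in a real inner product
space.
-/

namespace Vale.Agent.P121

open scoped RealInnerProductSpace

variable {E : Type*} [NormedAddCommGroup E] [InnerProductSpace ℝ E]

/-- The Coulomb repulsion `v / ‖v‖ ^ 3`. -/
noncomputable def force (v : E) : E := (‖v‖ ^ 3)⁻¹ • v

lemma force_neg (v : E) : force (-v) = -force v := by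
  simp [force]

lemma force_sub_comm (v w : E) : force (v - w) = -force (w - v) := by
  rw [← force_neg, neg_sub]

lemma norm_force {v : E} (hv : v ≠ 0) : ‖force v‖ = (‖v‖ ^ 2)⁻¹ := by
  have h : 0 < ‖v‖ := norm_pos_iff.mpr hv
  rw [force, norm_smul, norm_inv, norm_pow, norm_norm]
  field_simp

lemma norm_force_sub_sq {v w : E} (hv : v ≠ 0) (hw : w ≠ 0) :
    ‖force v - force w‖ ^ 2 = ‖v - w‖ ^ 2 * (‖v‖⁻¹ ^ 3 * ‖w‖⁻¹ ^ 3)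
      + (‖v‖ ^ 3 - ‖w‖ ^ 3) * (‖v‖ - ‖w‖) * (‖v‖⁻¹ ^ 4 * ‖w‖⁻¹ ^ 4) := by
  have h1 : 0 < ‖v‖ := norm_pos_iff.mpr hv
  have h2 : 0 < ‖w‖ := norm_pos_iff.mpr hw
  rw [@norm_sub_sq_real, @norm_sub_sq_real, norm_force hv, norm_force hw, force, force,
    real_inner_smul_left, real_inner_smul_right]
  field_simp
  ring

lemma norm_force_sub_le {v w : E} {a : ℝ} (ha : 0 < a) (hv : a ≤ ‖v‖) (hw : a ≤ ‖w‖) :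
    ‖force v - force w‖ ≤ 2 / a ^ 3 * ‖v - w‖ := by
  have h1 : 0 < ‖v‖ := lt_of_lt_of_le ha hv
  have h2 : 0 < ‖w‖ := lt_of_lt_of_le ha hw
  have hv0 : v ≠ 0 := norm_pos_iff.mp h1
  have hw0 : w ≠ 0 := norm_pos_iff.mp h2
  have hd : (‖v‖ - ‖w‖) ^ 2 ≤ ‖v - w‖ ^ 2 := by
    apply sq_le_sq'
    · have := norm_sub_norm_le w v
      rw [norm_sub_rev] at this
      linarith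
    · exact norm_sub_norm_le v w
  have hσ : ‖v‖⁻¹ ≤ a⁻¹ := inv_anti₀ ha hv
  have hτ : ‖w‖⁻¹ ≤ a⁻¹ := inv_anti₀ ha hw
  have hσ0 : 0 < ‖v‖⁻¹ := inv_pos.mpr h1
  have hτ0 : 0 < ‖w‖⁻¹ := inv_pos.mpr h2
  have key : ‖force v - force w‖ ^ 2 ≤ (2 / a ^ 3 * ‖v - w‖) ^ 2 := by
    rw [norm_force_sub_sq hv0 hw0]
    have e1 : (‖v‖ ^ 3 - ‖w‖ ^ 3) * (‖v‖ - ‖w‖) * (‖v‖⁻¹ ^ 4 * ‖w‖⁻¹ ^ 4)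
        = (‖v‖ - ‖w‖) ^ 2 * (‖v‖⁻¹ ^ 2 * ‖w‖⁻¹ ^ 4 + ‖v‖⁻¹ ^ 3 * ‖w‖⁻¹ ^ 3
          + ‖v‖⁻¹ ^ 4 * ‖w‖⁻¹ ^ 2) := by
      field_simp
      ring
    rw [e1]
    have b1 : ‖v‖⁻¹ ^ 2 * ‖w‖⁻¹ ^ 4 ≤ a⁻¹ ^ 2 * a⁻¹ ^ 4 := by gcongr
    have b2 : ‖v‖⁻¹ ^ 3 * ‖w‖⁻¹ ^ 3 ≤ a⁻¹ ^ 3 * a⁻¹ ^ 3 := by gcongr
    have b3 : ‖v‖⁻¹ ^ 4 * ‖w‖⁻¹ ^ 2 ≤ a⁻¹ ^ 4 * a⁻¹ ^ 2 := by gcongr
    have e2 : (2 / a ^ 3 * ‖v - w‖) ^ 2 = ‖v - w‖ ^ 2 * (4 * a⁻¹ ^ 6) := by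
      field_simp
      ring
    rw [e2]
    calc ‖v - w‖ ^ 2 * (‖v‖⁻¹ ^ 3 * ‖w‖⁻¹ ^ 3) + (‖v‖ - ‖w‖) ^ 2 *
          (‖v‖⁻¹ ^ 2 * ‖w‖⁻¹ ^ 4 + ‖v‖⁻¹ ^ 3 * ‖w‖⁻¹ ^ 3 + ‖v‖⁻¹ ^ 4 * ‖w‖⁻¹ ^ 2)
        ≤ ‖v - w‖ ^ 2 * (a⁻¹ ^ 3 * a⁻¹ ^ 3) + ‖v - w‖ ^ 2 *
          (a⁻¹ ^ 2 * a⁻¹ ^ 4 + a⁻¹ ^ 3 * a⁻¹ ^ 3 + a⁻¹ ^ 4 * a⁻¹ ^ 2) := by gcongr
      _ = ‖v - w‖ ^ 2 * (4 * a⁻¹ ^ 6) := by ring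
  exact le_of_sq_le_sq key (by positivity)

lemma norm_sub_le_of_force {v w : E} {b : ℝ} (hv0 : v ≠ 0) (hw0 : w ≠ 0) (hv : ‖v‖ ≤ b)
    (hw : ‖w‖ ≤ b) : ‖v - w‖ ≤ b ^ 3 * ‖force v - force w‖ := by
  have h1 : 0 < ‖v‖ := norm_pos_iff.mpr hv0
  have h2 : 0 < ‖w‖ := norm_pos_iff.mpr hw0
  have hb : 0 < b := lt_of_lt_of_le h1 hv
  have key : ‖v - w‖ ^ 2 ≤ (b ^ 3 * ‖force v - force w‖) ^ 2 := by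
    rw [mul_pow, norm_force_sub_sq hv0 hw0]
    have e1 : 0 ≤ (‖v‖ ^ 3 - ‖w‖ ^ 3) * (‖v‖ - ‖w‖) * (‖v‖⁻¹ ^ 4 * ‖w‖⁻¹ ^ 4) := by
      have : (‖v‖ ^ 3 - ‖w‖ ^ 3) * (‖v‖ - ‖w‖) =
        (‖v‖ - ‖w‖) ^ 2 * (‖v‖ ^ 2 + ‖v‖ * ‖w‖ + ‖w‖ ^ 2) := by ring
      rw [this]
      positivity
    have b1 : b⁻¹ ^ 3 * b⁻¹ ^ 3 ≤ ‖v‖⁻¹ ^ 3 * ‖w‖⁻¹ ^ 3 := by
      have i1 : b⁻¹ ≤ ‖v‖⁻¹ := inv_anti₀ h1 hv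
      have i2 : b⁻¹ ≤ ‖w‖⁻¹ := inv_anti₀ h2 hw
      gcongr
    calc ‖v - w‖ ^ 2 = (b ^ 3) ^ 2 * (‖v - w‖ ^ 2 * (b⁻¹ ^ 3 * b⁻¹ ^ 3)) := by
          field_simp
      _ ≤ (b ^ 3) ^ 2 * (‖v - w‖ ^ 2 * (‖v‖⁻¹ ^ 3 * ‖w‖⁻¹ ^ 3)
          + (‖v‖ ^ 3 - ‖w‖ ^ 3) * (‖v‖ - ‖w‖) * (‖v‖⁻¹ ^ 4 * ‖w‖⁻¹ ^ 4)) := by
          apply mul_le_mul_of_nonneg_left _ (by positivity)
          have := mul_le_mul_of_nonneg_left b1 (sq_nonneg ‖v - w‖)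
          linarith
  exact le_of_sq_le_sq key (by positivity)

/-- The force field is onto the nonzero vectors. -/
lemma exists_force_eq {p : E} (hp : p ≠ 0) : ∃ v : E, v ≠ 0 ∧ force v = p := by
  have h : 0 < ‖p‖ := norm_pos_iff.mpr hp
  set s := √‖p‖ with hs
  have hs0 : 0 < s := Real.sqrt_pos.mpr h
  have hsq : s ^ 2 = ‖p‖ := Real.sq_sqrt h.le
  refine ⟨(s ^ 3)⁻¹ • p, ?_, ?_⟩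
  · exact smul_ne_zero (by positivity) hp
  · have hn : ‖(s ^ 3)⁻¹ • p‖ = s⁻¹ := by
      rw [norm_smul, norm_inv, norm_pow, Real.norm_of_nonneg hs0.le, ← hsq]
      field_simp
    rw [force, hn, smul_smul]
    have : (s⁻¹ ^ 3)⁻¹ * (s ^ 3)⁻¹ = 1 := by
      field_simp
    rw [this, one_smul]

/-- Global quadratic lower bound of `1 / ‖w‖` around `v`. -/
lemma inv_norm_ge {v w : E} (hv : v ≠ 0) (hw : w ≠ 0) :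
    ‖v‖⁻¹ - ⟪force v, w - v⟫ - ‖w - v‖ ^ 2 * (‖v‖ ^ 3)⁻¹ / 2 ≤ ‖w‖⁻¹ := by
  have h1 : 0 < ‖v‖ := norm_pos_iff.mpr hv
  have h2 : 0 < ‖w‖ := norm_pos_iff.mpr hw
  have e1 : ‖w - v‖ ^ 2 = ‖w‖ ^ 2 - 2 * ⟪v, w - v⟫ - ‖v‖ ^ 2 := by
    rw [inner_sub_right, real_inner_self_eq_norm_sq, @norm_sub_sq_real, real_inner_comm]
    ring
  have e2 : ‖v‖⁻¹ - ⟪force v, w - v⟫ - ‖w - v‖ ^ 2 * (‖v‖ ^ 3)⁻¹ / 2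
      = 3 / 2 * ‖v‖⁻¹ - ‖w‖ ^ 2 * (‖v‖ ^ 3)⁻¹ / 2 := by
    rw [e1, force, real_inner_smul_left]
    field_simp
    ring
  rw [e2]
  have e3 : ‖w‖⁻¹ - (3 / 2 * ‖v‖⁻¹ - ‖w‖ ^ 2 * (‖v‖ ^ 3)⁻¹ / 2)
      = (‖v‖ - ‖w‖) ^ 2 * (2 * ‖v‖ + ‖w‖) * (‖w‖ * ‖v‖ ^ 3)⁻¹ / 2 := by
    field_simp
    ring
  have e4 : 0 ≤ (‖v‖ - ‖w‖) ^ 2 * (2 * ‖v‖ + ‖w‖) * (‖w‖ * ‖v‖ ^ 3)⁻¹ / 2 := by positivity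
  linarith

end Vale.Agent.P121
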