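import Mathlib
import Vale.Agent.P121.Force

/-!
Stationary triples: for every `x` near the origin there are `y` near `e` and `z` near `-e`
such that `(x, y, z)` is stationary for the Coulomb cost minus two concave quadratic
potentials.
-/

namespace Vale.Agent.P121

open scoped RealInnerProductSpace

variable {E : Type*} [NormedAddCommGroup E] [InnerProductSpace ℝ E]

/-- `(x, y, z)` is a stationary triple near `(0, e, -e)`. -/
structure Stat (e x y z : E) : Prop where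
  hx : ‖x‖ ≤ 1 / 1000000
  hy : ‖y - e‖ ≤ 1 / 200
  hz : ‖z + e‖ ≤ 1 / 1000
  eqx : (1000 : ℝ) • x = force (x - y) + force (x - z)
  eqz : (1000 : ℝ) • (z + e) = force (z - x) + force (z - y) + (5 / 4 : ℝ) • e

omit [InnerProductSpace ℝ E] in
lemma norm_near {v w : E} {a b : ℝ} (h : ‖v - w‖ ≤ a) (hw : ‖w‖ = b) :
    b - a ≤ ‖v‖ ∧ ‖v‖ ≤ b + a := by
  constructor
  · have := norm_sub_norm_le w v
    rw [norm_sub_rev, hw] at this
    linarith
  · have := norm_sub_norm_le v w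
    rw [hw] at this
    linarith

namespace Stat

variable {e x y z x' y' z' : E}

lemma xy (he : ‖e‖ = 1) (h : Stat e x y z) : 99 / 100 ≤ ‖x - y‖ ∧ ‖x - y‖ ≤ 101 / 100 := by
  have h1 : ‖(x - y) - (-e)‖ ≤ 1 / 1000000 + 1 / 200 := by
    have : (x - y) - (-e) = x - (y - e) := by abel
    rw [this]
    exact (norm_sub_le _ _).trans (add_le_add h.hx h.hy)
  have := norm_near h1 (b := 1) (by rwa [norm_neg])
  constructor <;> linarith [this.1, this.2]

lemma xz (he : ‖e‖ = 1) (h : Stat e x y z) : 99 / 100 ≤ ‖x - z‖ ∧ ‖x - z‖ ≤ 101 / 100 := by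
  have h1 : ‖(x - z) - e‖ ≤ 1 / 1000000 + 1 / 1000 := by
    have : (x - z) - e = x - (z + e) := by abel
    rw [this]
    exact (norm_sub_le _ _).trans (add_le_add h.hx h.hz)
  have := norm_near h1 he
  constructor <;> linarith [this.1, this.2]

lemma yz (he : ‖e‖ = 1) (h : Stat e x y z) : 199 / 100 ≤ ‖z - y‖ ∧ ‖z - y‖ ≤ 201 / 100 := by
  have h1 : ‖(z - y) - (-((2 : ℝ) • e))‖ ≤ 1 / 1000 + 1 / 200 := by
    have : (z - y) - (-((2 : ℝ) • e)) = (z + e) - (y - e) := by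
      rw [two_smul]; abel
    rw [this]
    exact (norm_sub_le _ _).trans (add_le_add h.hz h.hy)
  have := norm_near h1 (b := 2) (by rw [norm_neg, norm_smul, he]; norm_num)
  constructor <;> linarith [this.1, this.2]

omit [InnerProductSpace ℝ E] in
lemma ne_of_norm {v : E} {a : ℝ} (ha : 0 < a) (h : a ≤ ‖v‖) : v ≠ 0 :=
  norm_pos_iff.mp (lt_of_lt_of_le ha h)

/-- The four basic linear inequalities between the distances of two stationary triples. -/
lemma basic (he : ‖e‖ = 1) (h : Stat e x y z) (h' : Stat e x' y' z') :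
    1000 * ‖x - x'‖ ≤ 21 / 10 * (‖x - x'‖ + ‖y - y'‖) + 21 / 10 * (‖x - x'‖ + ‖z - z'‖) ∧
    1000 * ‖z - z'‖ ≤ 21 / 10 * (‖x - x'‖ + ‖z - z'‖) + 3 / 10 * (‖z - z'‖ + ‖y - y'‖) ∧
    ‖y - y'‖ ≤ ‖x - x'‖ + 11 / 10 * (1000 * ‖x - x'‖ + 21 / 10 * (‖x - x'‖ + ‖z - z'‖)) ∧
    ‖y - y'‖ ≤ ‖z - z'‖ + 82 / 10 * (1000 * ‖z - z'‖ + 21 / 10 * (‖x - x'‖ + ‖z - z'‖)) := by
  have a1 := h.xy he
  have a2 := h.xz he
  have a3 := h.yz he
  have b1 := h'.xy he
  have b2 := h'.xz he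
  have b3 := h'.yz he
  have nxy : ‖(x - y) - (x' - y')‖ ≤ ‖x - x'‖ + ‖y - y'‖ := by
    have : (x - y) - (x' - y') = (x - x') - (y - y') := by abel
    rw [this]; exact norm_sub_le _ _
  have nxz : ‖(x - z) - (x' - z')‖ ≤ ‖x - x'‖ + ‖z - z'‖ := by
    have : (x - z) - (x' - z') = (x - x') - (z - z') := by abel
    rw [this]; exact norm_sub_le _ _
  have nzy : ‖(z - y) - (z' - y')‖ ≤ ‖z - z'‖ + ‖y - y'‖ := by
    have : (z - y) - (z' - y') = (z - z') - (y - y') := by abel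
    rw [this]; exact norm_sub_le _ _
  have f1 : ‖force (x - y) - force (x' - y')‖ ≤ 21 / 10 * (‖x - x'‖ + ‖y - y'‖) :=
    calc _ ≤ 2 / (99 / 100) ^ 3 * ‖(x - y) - (x' - y')‖ :=
          norm_force_sub_le (by norm_num) a1.1 b1.1
      _ ≤ 21 / 10 * (‖x - x'‖ + ‖y - y'‖) :=
          mul_le_mul (by norm_num) nxy (norm_nonneg _) (by norm_num)
  have f2 : ‖force (x - z) - force (x' - z')‖ ≤ 21 / 10 * (‖x - x'‖ + ‖z - z'‖) :=
    calc _ ≤ 2 / (99 / 100) ^ 3 * ‖(x - z) - (x' - z')‖ :=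
          norm_force_sub_le (by norm_num) a2.1 b2.1
      _ ≤ 21 / 10 * (‖x - x'‖ + ‖z - z'‖) :=
          mul_le_mul (by norm_num) nxz (norm_nonneg _) (by norm_num)
  have f2' : ‖force (z - x) - force (z' - x')‖ ≤ 21 / 10 * (‖x - x'‖ + ‖z - z'‖) := by
    rw [force_sub_comm z x, force_sub_comm z' x']
    have : -force (x - z) - -force (x' - z') = -(force (x - z) - force (x' - z')) := by abel
    rw [this, norm_neg]
    exact f2
  have f3 : ‖force (z - y) - force (z' - y')‖ ≤ 3 / 10 * (‖z - z'‖ + ‖y - y'‖) :=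
    calc _ ≤ 2 / (199 / 100) ^ 3 * ‖(z - y) - (z' - y')‖ :=
          norm_force_sub_le (by norm_num) a3.1 b3.1
      _ ≤ 3 / 10 * (‖z - z'‖ + ‖y - y'‖) :=
          mul_le_mul (by norm_num) nzy (norm_nonneg _) (by norm_num)
  have k1 : ‖(1000 : ℝ) • (x - x')‖ = 1000 * ‖x - x'‖ := by
    rw [norm_smul]; norm_num
  have k2 : ‖(1000 : ℝ) • (z - z')‖ = 1000 * ‖z - z'‖ := by
    rw [norm_smul]; norm_num
  have eq1 : (1000 : ℝ) • (x - x') =
      (force (x - y) - force (x' - y')) + (force (x - z) - force (x' - z')) := by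
    rw [smul_sub, h.eqx, h'.eqx]; abel
  have eq2 : (1000 : ℝ) • (z - z') =
      (force (z - x) - force (z' - x')) + (force (z - y) - force (z' - y')) := by
    have : (1000 : ℝ) • (z - z') = (1000 : ℝ) • (z + e) - (1000 : ℝ) • (z' + e) := by
      rw [← smul_sub]; congr 1; abel
    rw [this, h.eqz, h'.eqz]; abel
  refine ⟨?_, ?_, ?_, ?_⟩
  · rw [← k1, eq1]
    exact (norm_add_le _ _).trans (add_le_add f1 f2)
  · rw [← k2, eq2]
    exact (norm_add_le _ _).trans (add_le_add f2' f3)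
  · have g1 : ‖(x - y) - (x' - y')‖ ≤
        (101 / 100) ^ 3 * ‖force (x - y) - force (x' - y')‖ :=
      norm_sub_le_of_force (ne_of_norm (by norm_num) a1.1) (ne_of_norm (by norm_num) b1.1)
        a1.2 b1.2
    have g2 : ‖force (x - y) - force (x' - y')‖ ≤
        1000 * ‖x - x'‖ + 21 / 10 * (‖x - x'‖ + ‖z - z'‖) := by
      have : force (x - y) - force (x' - y') =
        (1000 : ℝ) • (x - x') - (force (x - z) - force (x' - z')) := by rw [eq1]; abel
      rw [this]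
      refine (norm_sub_le _ _).trans ?_
      rw [k1]
      linarith
    have g3 : ‖y - y'‖ ≤ ‖x - x'‖ + ‖(x - y) - (x' - y')‖ := by
      have : y - y' = (x - x') - ((x - y) - (x' - y')) := by abel
      calc ‖y - y'‖ = ‖(x - x') - ((x - y) - (x' - y'))‖ := by rw [← this]
        _ ≤ _ := norm_sub_le _ _
    have g4 : (101 / 100 : ℝ) ^ 3 * ‖force (x - y) - force (x' - y')‖ ≤
        11 / 10 * (1000 * ‖x - x'‖ + 21 / 10 * (‖x - x'‖ + ‖z - z'‖)) :=
      mul_le_mul (by norm_num) g2 (norm_nonneg _) (by norm_num)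
    linarith
  · have g1 : ‖(z - y) - (z' - y')‖ ≤
        (201 / 100) ^ 3 * ‖force (z - y) - force (z' - y')‖ :=
      norm_sub_le_of_force (ne_of_norm (by norm_num) a3.1) (ne_of_norm (by norm_num) b3.1)
        a3.2 b3.2
    have g2 : ‖force (z - y) - force (z' - y')‖ ≤
        1000 * ‖z - z'‖ + 21 / 10 * (‖x - x'‖ + ‖z - z'‖) := by
      have : force (z - y) - force (z' - y') =
        (1000 : ℝ) • (z - z') - (force (z - x) - force (z' - x')) := by rw [eq2]; abel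
      rw [this]
      refine (norm_sub_le _ _).trans ?_
      rw [k2]
      linarith
    have g3 : ‖y - y'‖ ≤ ‖z - z'‖ + ‖(z - y) - (z' - y')‖ := by
      have : y - y' = (z - z') - ((z - y) - (z' - y')) := by abel
      calc ‖y - y'‖ = ‖(z - z') - ((z - y) - (z' - y'))‖ := by rw [← this]
        _ ≤ _ := norm_sub_le _ _
    have g4 : (201 / 100 : ℝ) ^ 3 * ‖force (z - y) - force (z' - y')‖ ≤
        82 / 10 * (1000 * ‖z - z'‖ + 21 / 10 * (‖x - x'‖ + ‖z - z'‖)) :=
      mul_le_mul (by norm_num) g2 (norm_nonneg _) (by norm_num)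
    linarith

lemma dx_le_dy (he : ‖e‖ = 1) (h : Stat e x y z) (h' : Stat e x' y' z') :
    ‖x - x'‖ ≤ ‖y - y'‖ := by
  obtain ⟨i1, i2, i3, i4⟩ := basic he h h'
  have := norm_nonneg (x - x')
  have := norm_nonneg (y - y')
  have := norm_nonneg (z - z')
  linarith

lemma dz_le_dy (he : ‖e‖ = 1) (h : Stat e x y z) (h' : Stat e x' y' z') :
    ‖z - z'‖ ≤ ‖y - y'‖ := by
  obtain ⟨i1, i2, i3, i4⟩ := basic he h h'
  have := norm_nonneg (x - x')
  have := norm_nonneg (y - y')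
  have := norm_nonneg (z - z')
  linarith

lemma dy_le_dx (he : ‖e‖ = 1) (h : Stat e x y z) (h' : Stat e x' y' z') :
    ‖y - y'‖ ≤ 1200 * ‖x - x'‖ := by
  obtain ⟨i1, i2, i3, i4⟩ := basic he h h'
  have := norm_nonneg (x - x')
  have := norm_nonneg (y - y')
  have := norm_nonneg (z - z')
  linarith

lemma dz_le_dx (he : ‖e‖ = 1) (h : Stat e x y z) (h' : Stat e x' y' z') :
    ‖z - z'‖ ≤ 1200 * ‖x - x'‖ := by
  have h1 := dy_le_dx he h h'
  have h2 := dz_le_dy he h h'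
  linarith

lemma dx_le_dz (he : ‖e‖ = 1) (h : Stat e x y z) (h' : Stat e x' y' z') :
    ‖x - x'‖ ≤ 20 * ‖z - z'‖ := by
  obtain ⟨i1, i2, i3, i4⟩ := basic he h h'
  have := norm_nonneg (x - x')
  have := norm_nonneg (y - y')
  have := norm_nonneg (z - z')
  linarith

end Stat

end Vale.Agent.P121
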