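import Mathlib
import Vale.Agent.P121.Stat

/-!
Existence of stationary triples through every `x` close to the origin (Banach fixed point).
-/

namespace Vale.Agent.P121

open scoped RealInnerProductSpace

variable {E : Type*} [NormedAddCommGroup E] [InnerProductSpace ℝ E]

lemma force_unit {e : E} (he : ‖e‖ = 1) : force e = e := by
  simp [force, he]

lemma force_two {e : E} (he : ‖e‖ = 1) : force (-((2 : ℝ) • e)) = -((1 / 4 : ℝ) • e) := by
  rw [force_neg, force, norm_smul, he, smul_smul]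
  norm_num

theorem exists_stat [CompleteSpace E] {e x : E} (he : ‖e‖ = 1) (hx : ‖x‖ ≤ 1 / 1000000) :
    ∃ y z, Stat e x y z := by
  classical
  -- a right inverse of the force
  have hg : ∀ p : E, ∃ v : E, p ≠ 0 → v ≠ 0 ∧ force v = p := by
    intro p
    by_cases hp : p = 0
    · exact ⟨0, fun h => absurd hp h⟩
    · obtain ⟨v, hv⟩ := exists_force_eq hp
      exact ⟨v, fun _ => hv⟩
  choose g hg using hg
  set P : E → E := fun z => (1000 : ℝ) • x - force (x - z) with hP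
  set Y : E → E := fun z => x - g (P z) with hY
  set Φ : E → E := fun z => -e + (1 / 1000 : ℝ) •
    (force (z - x) + force (z - Y z) + (5 / 4 : ℝ) • e) with hΦ
  set s : Set E := Metric.closedBall (-e) (1 / 1000) with hs
  have hmem : ∀ z, z ∈ s ↔ ‖z + e‖ ≤ 1 / 1000 := by
    intro z
    rw [hs, Metric.mem_closedBall, dist_eq_norm, sub_neg_eq_add]
  -- estimates for points of `s`
  have hxz : ∀ z ∈ s, ‖(x - z) - e‖ ≤ 1 / 1000000 + 1 / 1000 := by
    intro z hz
    have : (x - z) - e = x - (z + e) := by abel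
    rw [this]
    exact (norm_sub_le _ _).trans (add_le_add hx ((hmem z).mp hz))
  have hxzn : ∀ z ∈ s, 99 / 100 ≤ ‖x - z‖ := by
    intro z hz
    have := (norm_near (hxz z hz) he).1
    linarith
  have hf1 : ∀ z ∈ s, ‖force (x - z) - e‖ ≤ 22 / 10000 := by
    intro z hz
    have h1 : ‖force (x - z) - force e‖ ≤ 2 / (99 / 100) ^ 3 * ‖(x - z) - e‖ :=
      norm_force_sub_le (by norm_num) (hxzn z hz) (by rw [he]; norm_num)
    rw [force_unit he] at h1
    have h2 : 2 / (99 / 100 : ℝ) ^ 3 * ‖(x - z) - e‖ ≤ 21 / 10 * (1 / 1000000 + 1 / 1000) :=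
      mul_le_mul (by norm_num) (hxz z hz) (norm_nonneg _) (by norm_num)
    refine h1.trans (h2.trans (by norm_num))
  have hKx : ‖(1000 : ℝ) • x‖ ≤ 1 / 1000 := by
    rw [norm_smul]
    have : ‖(1000 : ℝ)‖ = 1000 := by norm_num
    rw [this]
    linarith
  have hPe : ∀ z ∈ s, ‖P z - (-e)‖ ≤ 32 / 10000 := by
    intro z hz
    have : P z - (-e) = (1000 : ℝ) • x - (force (x - z) - e) := by
      rw [hP]; simp only; abel
    rw [this]
    refine (norm_sub_le _ _).trans ?_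
    have := hf1 z hz
    linarith
  have hPn : ∀ z ∈ s, 9968 / 10000 ≤ ‖P z‖ := by
    intro z hz
    have := (norm_near (hPe z hz) (b := 1) (by rwa [norm_neg])).1
    linarith
  have hP0 : ∀ z ∈ s, P z ≠ 0 := fun z hz => Stat.ne_of_norm (by norm_num) (hPn z hz)
  have hg0 : ∀ z ∈ s, g (P z) ≠ 0 := fun z hz => (hg _ (hP0 z hz)).1
  have hgf : ∀ z ∈ s, force (g (P z)) = P z := fun z hz => (hg _ (hP0 z hz)).2
  have hgn : ∀ z ∈ s, ‖g (P z)‖ ≤ 101 / 100 := by
    intro z hz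
    have h1 : ‖P z‖ = (‖g (P z)‖ ^ 2)⁻¹ := by
      conv_lhs => rw [← hgf z hz]
      exact norm_force (hg0 z hz)
    have h2 := hPn z hz
    rw [h1] at h2
    have h3 : 0 < ‖g (P z)‖ := norm_pos_iff.mpr (hg0 z hz)
    by_contra hcon
    push Not at hcon
    have h4 : (‖g (P z)‖ ^ 2)⁻¹ < ((101 / 100 : ℝ) ^ 2)⁻¹ := by
      apply inv_strictAnti₀ (by norm_num)
      gcongr
    norm_num at h4 h2
    linarith
  have hge : ∀ z ∈ s, ‖g (P z) - (-e)‖ ≤ 4 / 1000 := by
    intro z hz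
    have h1 : ‖g (P z) - (-e)‖ ≤ (101 / 100) ^ 3 * ‖force (g (P z)) - force (-e)‖ :=
      norm_sub_le_of_force (hg0 z hz) (Stat.ne_of_norm (a := 1) (by norm_num)
        (by rw [norm_neg, he])) (hgn z hz) (by rw [norm_neg, he]; norm_num)
    rw [hgf z hz, force_neg, force_unit he] at h1
    have h2 : (101 / 100 : ℝ) ^ 3 * ‖P z - (-e)‖ ≤ (101 / 100) ^ 3 * (32 / 10000) :=
      mul_le_mul_of_nonneg_left (hPe z hz) (by norm_num)
    refine h1.trans (h2.trans (by norm_num))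
  have hYe : ∀ z ∈ s, ‖Y z - e‖ ≤ 1 / 200 := by
    intro z hz
    have : Y z - e = x - (g (P z) - (-e)) := by
      rw [hY]; simp only; abel
    rw [this]
    refine (norm_sub_le _ _).trans ?_
    have := hge z hz
    linarith
  have hzY : ∀ z ∈ s, ‖(z - Y z) - (-((2 : ℝ) • e))‖ ≤ 6 / 1000 := by
    intro z hz
    have : (z - Y z) - (-((2 : ℝ) • e)) = (z + e) - (Y z - e) := by
      rw [two_smul]; abel
    rw [this]
    refine (norm_sub_le _ _).trans ?_
    have h1 := hYe z hz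
    have h2 := (hmem z).mp hz
    linarith
  have hzYn : ∀ z ∈ s, 199 / 100 ≤ ‖z - Y z‖ := by
    intro z hz
    have := (norm_near (hzY z hz) (b := 2) (by rw [norm_neg, norm_smul, he]; norm_num)).1
    linarith
  have hf3 : ∀ z ∈ s, ‖force (z - Y z) + (1 / 4 : ℝ) • e‖ ≤ 2 / 1000 := by
    intro z hz
    have h1 : ‖force (z - Y z) - force (-((2 : ℝ) • e))‖ ≤
        2 / (199 / 100) ^ 3 * ‖(z - Y z) - (-((2 : ℝ) • e))‖ :=
      norm_force_sub_le (by norm_num) (hzYn z hz) (by rw [norm_neg, norm_smul, he]; norm_num)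
    rw [force_two he, sub_neg_eq_add] at h1
    have h2 : 2 / (199 / 100 : ℝ) ^ 3 * ‖(z - Y z) - (-((2 : ℝ) • e))‖ ≤
        3 / 10 * (6 / 1000) :=
      mul_le_mul (by norm_num) (hzY z hz) (norm_nonneg _) (by norm_num)
    refine h1.trans (h2.trans (by norm_num))
  have hmaps : Set.MapsTo Φ s s := by
    intro z hz
    rw [hmem]
    have e1 : Φ z + e = (1 / 1000 : ℝ) •
        ((force (z - Y z) + (1 / 4 : ℝ) • e) - (force (x - z) - e)) := by
      rw [hΦ]
      simp only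
      rw [force_sub_comm z x]
      have : (5 / 4 : ℝ) • e = e + (1 / 4 : ℝ) • e := by
        rw [show (5 / 4 : ℝ) = 1 + 1 / 4 by norm_num, add_smul, one_smul]
      rw [this]
      have : ∀ w : E, -e + w + e = w := fun w => by abel
      rw [this]
      congr 1
      abel
    rw [e1, norm_smul]
    have h1 := hf1 z hz
    have h3 := hf3 z hz
    have h4 := norm_sub_le (force (z - Y z) + (1 / 4 : ℝ) • e) (force (x - z) - e)
    have h5 : ‖(1 / 1000 : ℝ)‖ = 1 / 1000 := by norm_num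
    rw [h5]
    linarith
  have hlip : ∀ z ∈ s, ∀ z' ∈ s, ‖Φ z - Φ z'‖ ≤ 1 / 2 * ‖z - z'‖ := by
    intro z hz z' hz'
    have hn := norm_nonneg (z - z')
    have f2 : ‖force (x - z) - force (x - z')‖ ≤ 21 / 10 * ‖z - z'‖ := by
      have h1 : ‖force (x - z) - force (x - z')‖ ≤
          2 / (99 / 100) ^ 3 * ‖(x - z) - (x - z')‖ :=
        norm_force_sub_le (by norm_num) (hxzn z hz) (hxzn z' hz')
      have h2 : ‖(x - z) - (x - z')‖ = ‖z - z'‖ := by
        rw [← norm_neg]; congr 1; abel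
      rw [h2] at h1
      refine h1.trans (mul_le_mul (by norm_num) le_rfl hn (by norm_num))
    have f2' : ‖force (z - x) - force (z' - x)‖ ≤ 21 / 10 * ‖z - z'‖ := by
      rw [force_sub_comm z x, force_sub_comm z' x]
      have : -force (x - z) - -force (x - z') = -(force (x - z) - force (x - z')) := by abel
      rw [this, norm_neg]
      exact f2
    have f4 : ‖P z - P z'‖ ≤ 21 / 10 * ‖z - z'‖ := by
      have : P z - P z' = -(force (x - z) - force (x - z')) := by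
        rw [hP]; simp only; abel
      rw [this, norm_neg]
      exact f2
    have f5 : ‖g (P z) - g (P z')‖ ≤ 24 / 10 * ‖z - z'‖ := by
      have h1 : ‖g (P z) - g (P z')‖ ≤
          (101 / 100) ^ 3 * ‖force (g (P z)) - force (g (P z'))‖ :=
        norm_sub_le_of_force (hg0 z hz) (hg0 z' hz') (hgn z hz) (hgn z' hz')
      rw [hgf z hz, hgf z' hz'] at h1
      have h2 : (101 / 100 : ℝ) ^ 3 * ‖P z - P z'‖ ≤ (101 / 100) ^ 3 * (21 / 10 * ‖z - z'‖) :=
        mul_le_mul_of_nonneg_left f4 (by norm_num)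
      refine h1.trans (h2.trans ?_)
      rw [← mul_assoc]
      exact mul_le_mul (by norm_num) le_rfl hn (by norm_num)
    have f6 : ‖(z - Y z) - (z' - Y z')‖ ≤ 34 / 10 * ‖z - z'‖ := by
      have : (z - Y z) - (z' - Y z') = (z - z') + (g (P z) - g (P z')) := by
        rw [hY]; simp only; abel
      rw [this]
      refine (norm_add_le _ _).trans ?_
      linarith
    have f7 : ‖force (z - Y z) - force (z' - Y z')‖ ≤ 11 / 10 * ‖z - z'‖ := by
      have h1 : ‖force (z - Y z) - force (z' - Y z')‖ ≤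
          2 / (199 / 100) ^ 3 * ‖(z - Y z) - (z' - Y z')‖ :=
        norm_force_sub_le (by norm_num) (hzYn z hz) (hzYn z' hz')
      have h2 : 2 / (199 / 100 : ℝ) ^ 3 * ‖(z - Y z) - (z' - Y z')‖ ≤
          3 / 10 * (34 / 10 * ‖z - z'‖) :=
        mul_le_mul (by norm_num) f6 (norm_nonneg _) (by norm_num)
      linarith
    have e2 : Φ z - Φ z' = (1 / 1000 : ℝ) • ((force (z - x) - force (z' - x)) +
        (force (z - Y z) - force (z' - Y z'))) := by
      rw [hΦ]
      simp only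
      have : ∀ u w : E, -e + u - (-e + w) = u - w := fun u w => by abel
      rw [this, ← smul_sub]
      congr 1
      abel
    rw [e2, norm_smul]
    have h5 : ‖(1 / 1000 : ℝ)‖ = 1 / 1000 := by norm_num
    rw [h5]
    have := norm_add_le (force (z - x) - force (z' - x)) (force (z - Y z) - force (z' - Y z'))
    linarith
  have hcontr : ContractingWith (1 / 2) (hmaps.restrict Φ s s) := by
    refine ⟨?_, ?_⟩
    · rw [← NNReal.coe_lt_coe]; norm_num
    · apply LipschitzWith.of_dist_le_mul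
      intro z z'
      rw [Subtype.dist_eq, Subtype.dist_eq, dist_eq_norm, dist_eq_norm]
      have := hlip z z.2 z' z'.2
      simpa using this
  have hcomplete : IsComplete s := (Metric.isClosed_closedBall).isComplete
  obtain ⟨z, hzs, hzfix, -⟩ := hcontr.exists_fixedPoint' hcomplete hmaps
    (x := -e) (by rw [hmem]; simp) (edist_ne_top _ _)
  refine ⟨Y z, z, hx, hYe z hzs, (hmem z).mp hzs, ?_, ?_⟩
  · have h1 : x - Y z = g (P z) := by rw [hY]; simp
    rw [h1, hgf z hzs, hP]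
    simp
  · have h1 : z + e = (1 / 1000 : ℝ) •
      (force (z - x) + force (z - Y z) + (5 / 4 : ℝ) • e) := by
      have h2 : Φ z = z := hzfix
      have h3 : z + e = Φ z + e := by rw [h2]
      rw [h3, hΦ]
      simp only
      abel
    rw [h1, smul_smul]
    norm_num

/-- Strict minimality of a stationary triple for given `y`. -/
theorem Stat.lower {e x y z x' z' : E} (he : ‖e‖ = 1) (h : Stat e x y z)
    (h1 : x' ≠ y) (h2 : x' ≠ z') (h3 : z' ≠ y) :
    (‖x - y‖⁻¹ + ‖x - z‖⁻¹ + ‖z - y‖⁻¹) + 500 * ‖x‖ ^ 2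
      + (500 * ‖z + e‖ ^ 2 - 5 / 4 * ⟪e, z + e⟫) + 490 * (‖x' - x‖ ^ 2 + ‖z' - z‖ ^ 2)
    ≤ (‖x' - y‖⁻¹ + ‖x' - z'‖⁻¹ + ‖z' - y‖⁻¹) + 500 * ‖x'‖ ^ 2
      + (500 * ‖z' + e‖ ^ 2 - 5 / 4 * ⟪e, z' + e⟫) := by
  have a1 := h.xy he
  have a2 := h.xz he
  have a3 := h.yz he
  have t1 := inv_norm_ge (v := x - y) (w := x' - y) (ne_of_norm (by norm_num) a1.1)
    (sub_ne_zero.mpr h1)
  have t2 := inv_norm_ge (v := x - z) (w := x' - z') (ne_of_norm (by norm_num) a2.1)
    (sub_ne_zero.mpr h2)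
  have t3 := inv_norm_ge (v := z - y) (w := z' - y) (ne_of_norm (by norm_num) a3.1)
    (sub_ne_zero.mpr h3)
  have e1 : (x' - y) - (x - y) = x' - x := by abel
  have e2 : (x' - z') - (x - z) = (x' - x) - (z' - z) := by abel
  have e3 : (z' - y) - (z - y) = z' - z := by abel
  rw [e1] at t1
  rw [e2] at t2
  rw [e3] at t3
  have c1 : (‖x - y‖ ^ 3)⁻¹ ≤ 11 / 10 := by
    have : ((99 / 100 : ℝ) ^ 3)⁻¹ ≤ 11 / 10 := by norm_num
    refine le_trans ?_ this
    gcongr
    exact a1.1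
  have c2 : (‖x - z‖ ^ 3)⁻¹ ≤ 11 / 10 := by
    have : ((99 / 100 : ℝ) ^ 3)⁻¹ ≤ 11 / 10 := by norm_num
    refine le_trans ?_ this
    gcongr
    exact a2.1
  have c3 : (‖z - y‖ ^ 3)⁻¹ ≤ 11 / 10 := by
    have : ((199 / 100 : ℝ) ^ 3)⁻¹ ≤ 11 / 10 := by norm_num
    refine le_trans ?_ this
    gcongr
    exact a3.1
  have q1 : ‖x' - x‖ ^ 2 * (‖x - y‖ ^ 3)⁻¹ ≤ ‖x' - x‖ ^ 2 * (11 / 10) :=
    mul_le_mul_of_nonneg_left c1 (sq_nonneg _)
  have q3 : ‖z' - z‖ ^ 2 * (‖z - y‖ ^ 3)⁻¹ ≤ ‖z' - z‖ ^ 2 * (11 / 10) :=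
    mul_le_mul_of_nonneg_left c3 (sq_nonneg _)
  have n2 : ‖(x' - x) - (z' - z)‖ ^ 2 ≤ 2 * (‖x' - x‖ ^ 2 + ‖z' - z‖ ^ 2) := by
    have := parallelogram_law_with_norm ℝ (x' - x) (z' - z)
    nlinarith [norm_nonneg ((x' - x) + (z' - z))]
  have q2 : ‖(x' - x) - (z' - z)‖ ^ 2 * (‖x - z‖ ^ 3)⁻¹ ≤
      2 * (‖x' - x‖ ^ 2 + ‖z' - z‖ ^ 2) * (11 / 10) :=
    mul_le_mul n2 c2 (by positivity) (by positivity)
  -- expansion of the quadratic potentials
  have g1 : ‖x'‖ ^ 2 = ‖x‖ ^ 2 + 2 * ⟪x, x' - x⟫ + ‖x' - x‖ ^ 2 := by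
    have : x' = x + (x' - x) := by abel
    conv_lhs => rw [this]
    rw [@norm_add_sq_real]
  have g2 : ‖z' + e‖ ^ 2 = ‖z + e‖ ^ 2 + 2 * ⟪z + e, z' - z⟫ + ‖z' - z‖ ^ 2 := by
    have : z' + e = (z + e) + (z' - z) := by abel
    conv_lhs => rw [this]
    rw [@norm_add_sq_real]
  have g3 : ⟪e, z' + e⟫ = ⟪e, z + e⟫ + ⟪e, z' - z⟫ := by
    rw [← inner_add_right]; congr 1; abel
  have i1 : 1000 * ⟪x, x' - x⟫ = ⟪force (x - y), x' - x⟫ + ⟪force (x - z), x' - x⟫ := by
    rw [← inner_add_left, ← h.eqx, real_inner_smul_left]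
  have i2 : 1000 * ⟪z + e, z' - z⟫ = -⟪force (x - z), z' - z⟫ + ⟪force (z - y), z' - z⟫
      + 5 / 4 * ⟪e, z' - z⟫ := by
    rw [← real_inner_smul_left, h.eqz, inner_add_left, inner_add_left, force_sub_comm z x,
      inner_neg_left, real_inner_smul_left]
  rw [inner_sub_right] at t2
  rw [g1, g2, g3]
  have p1 := sq_nonneg ‖x' - x‖
  have p2 := sq_nonneg ‖z' - z‖
  linarith

end Vale.Agent.P121
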