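import Mathlib
import Vale.Agent.P121.Exist

/-!
Parametrization of the stationary triples by continuous maps with Lipschitz inverses.
-/

namespace Vale.Agent.P121

open scoped RealInnerProductSpace NNReal

variable {E : Type*} [NormedAddCommGroup E] [InnerProductSpace ℝ E] [FiniteDimensional ℝ E]

/-- The family of stationary triples attached to a unit vector `e`, parametrized by the small
closed ball around the origin: `Y`, `Z` are the two outer points, `P`, `Q` are Lipschitz left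
inverses of `Y`, `Z` on that ball. -/
structure Family (e : E) where
  Y : E → E
  Z : E → E
  P : E → E
  Q : E → E
  contY : Continuous Y
  contZ : Continuous Z
  LP : ℝ≥0
  LQ : ℝ≥0
  lipP : LipschitzWith LP P
  lipQ : LipschitzWith LQ Q
  stat : ∀ x, ‖x‖ ≤ 1 / 1000000 → Stat e x (Y x) (Z x)
  PY : ∀ x, ‖x‖ ≤ 1 / 1000000 → P (Y x) = x
  QZ : ∀ x, ‖x‖ ≤ 1 / 1000000 → Q (Z x) = x

theorem exists_family {e : E} (he : ‖e‖ = 1) : Nonempty (Family e) := by
  classical
  have h0 : ∀ x : E, ∃ y z, ‖x‖ ≤ 1 / 1000000 → Stat e x y z := by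
    intro x
    by_cases hx : ‖x‖ ≤ 1 / 1000000
    · obtain ⟨y, z, h⟩ := exists_stat he hx
      exact ⟨y, z, fun _ => h⟩
    · exact ⟨0, 0, fun h => absurd h hx⟩
  choose Y0 Z0 h0 using h0
  set s : Set E := Metric.closedBall 0 (1 / 1000000) with hs
  have hmem : ∀ x, x ∈ s ↔ ‖x‖ ≤ 1 / 1000000 := by
    intro x
    rw [hs, mem_closedBall_zero_iff]
  have hYlip : LipschitzOnWith 1200 Y0 s := by
    apply LipschitzOnWith.of_dist_le_mul
    intro x hx x' hx'
    rw [dist_eq_norm, dist_eq_norm]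
    exact_mod_cast Stat.dy_le_dx he (h0 x ((hmem x).mp hx)) (h0 x' ((hmem x').mp hx'))
  have hZlip : LipschitzOnWith 1200 Z0 s := by
    apply LipschitzOnWith.of_dist_le_mul
    intro x hx x' hx'
    rw [dist_eq_norm, dist_eq_norm]
    exact_mod_cast Stat.dz_le_dx he (h0 x ((hmem x).mp hx)) (h0 x' ((hmem x').mp hx'))
  obtain ⟨Y, hYL, hY⟩ := hYlip.extend_finite_dimension
  obtain ⟨Z, hZL, hZ⟩ := hZlip.extend_finite_dimension
  have hstat : ∀ x, ‖x‖ ≤ 1 / 1000000 → Stat e x (Y x) (Z x) := by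
    intro x hx
    have h := h0 x hx
    rw [← hY ((hmem x).mpr hx), ← hZ ((hmem x).mpr hx)]
    exact h
  -- left inverses
  have hP : ∀ y : E, ∃ x : E, y ∈ Y '' s → x ∈ s ∧ Y x = y := by
    intro y
    by_cases hy : y ∈ Y '' s
    · obtain ⟨x, hx, hxy⟩ := hy
      exact ⟨x, fun _ => ⟨hx, hxy⟩⟩
    · exact ⟨0, fun h => absurd h hy⟩
  have hQ : ∀ y : E, ∃ x : E, y ∈ Z '' s → x ∈ s ∧ Z x = y := by
    intro y
    by_cases hy : y ∈ Z '' s
    · obtain ⟨x, hx, hxy⟩ := hy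
      exact ⟨x, fun _ => ⟨hx, hxy⟩⟩
    · exact ⟨0, fun h => absurd h hy⟩
  choose P0 hP0 using hP
  choose Q0 hQ0 using hQ
  have hPlip : LipschitzOnWith 1 P0 (Y '' s) := by
    apply LipschitzOnWith.of_dist_le_mul
    intro y hy y' hy'
    obtain ⟨a1, a2⟩ := hP0 y hy
    obtain ⟨b1, b2⟩ := hP0 y' hy'
    have := Stat.dx_le_dy he (hstat _ ((hmem _).mp a1)) (hstat _ ((hmem _).mp b1))
    rw [a2, b2] at this
    rw [dist_eq_norm, dist_eq_norm]
    simpa using this
  have hQlip : LipschitzOnWith 20 Q0 (Z '' s) := by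
    apply LipschitzOnWith.of_dist_le_mul
    intro y hy y' hy'
    obtain ⟨a1, a2⟩ := hQ0 y hy
    obtain ⟨b1, b2⟩ := hQ0 y' hy'
    have := Stat.dx_le_dz he (hstat _ ((hmem _).mp a1)) (hstat _ ((hmem _).mp b1))
    rw [a2, b2] at this
    rw [dist_eq_norm, dist_eq_norm]
    exact_mod_cast this
  obtain ⟨P, hPL, hPeq⟩ := hPlip.extend_finite_dimension
  obtain ⟨Q, hQL, hQeq⟩ := hQlip.extend_finite_dimension
  refine ⟨⟨Y, Z, P, Q, hYL.continuous, hZL.continuous, _, _, hPL, hQL, hstat, ?_, ?_⟩⟩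
  · intro x hx
    have hxs : x ∈ s := (hmem x).mpr hx
    have hy : Y x ∈ Y '' s := ⟨x, hxs, rfl⟩
    rw [← hPeq hy]
    obtain ⟨a1, a2⟩ := hP0 (Y x) hy
    have := Stat.dx_le_dy he (hstat _ ((hmem _).mp a1)) (hstat x hx)
    rw [a2, sub_self, norm_zero] at this
    exact sub_eq_zero.mp (norm_le_zero_iff.mp this)
  · intro x hx
    have hxs : x ∈ s := (hmem x).mpr hx
    have hy : Z x ∈ Z '' s := ⟨x, hxs, rfl⟩
    rw [← hQeq hy]
    obtain ⟨a1, a2⟩ := hQ0 (Z x) hy
    have := Stat.dx_le_dz he (hstat _ ((hmem _).mp a1)) (hstat x hx)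
    rw [a2, sub_self, norm_zero, mul_zero] at this
    exact sub_eq_zero.mp (norm_le_zero_iff.mp this)

end Vale.Agent.P121
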