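import Mathlib
import Vale.Agent.P121.Param

/-!
The dual potential and the slackness inequalities.
-/

namespace Vale.Agent.P121

open scoped RealInnerProductSpace NNReal ENNReal
open MeasureTheory

section cost

variable {E : Type*} [NormedAddCommGroup E]

/-- Auxiliary generic form of the Coulomb cost. -/
noncomputable def gcost (x y z : E) : ℝ≥0∞ :=
  1 / edist x y + 1 / edist x z + 1 / edist y z

lemma gcost_swap (x y z : E) : gcost x y z = gcost x z y := by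
  unfold gcost
  rw [edist_comm y z]
  ring

lemma gcost_rot (x y z : E) : gcost x y z = gcost y x z := by
  unfold gcost
  rw [edist_comm x y]
  ring

lemma gcost_rot' (x y z : E) : gcost x y z = gcost z x y := by
  unfold gcost
  rw [edist_comm z x, edist_comm z y]
  ring

lemma one_div_edist_ge {x y : E} {a : ℝ} (ha : 0 < a) (h : ‖x - y‖ ≤ a) :
    ENNReal.ofReal a⁻¹ ≤ 1 / edist x y := by
  rw [one_div, ENNReal.ofReal_inv_of_pos ha, edist_dist, dist_eq_norm]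
  exact ENNReal.inv_le_inv.mpr (ENNReal.ofReal_le_ofReal h)

lemma one_div_edist_eq {x y : E} (h : x ≠ y) :
    1 / edist x y = ENNReal.ofReal ‖x - y‖⁻¹ := by
  have : 0 < ‖x - y‖ := norm_pos_iff.mpr (sub_ne_zero.mpr h)
  rw [one_div, ENNReal.ofReal_inv_of_pos this, edist_dist, dist_eq_norm]

lemma gcost_eq {x y z : E} (h1 : x ≠ y) (h2 : x ≠ z) (h3 : y ≠ z) :
    gcost x y z = ENNReal.ofReal (‖x - y‖⁻¹ + ‖x - z‖⁻¹ + ‖z - y‖⁻¹) := by
  unfold gcost
  rw [one_div_edist_eq h1, one_div_edist_eq h2, one_div_edist_eq h3, norm_sub_rev y z,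
    ENNReal.ofReal_add (by positivity) (by positivity),
    ENNReal.ofReal_add (by positivity) (by positivity)]

end cost

variable {E : Type*} [NormedAddCommGroup E] [InnerProductSpace ℝ E]

/-- Potential near the origin. -/
noncomputable def u1 (x : E) : ℝ := 2 - 500 * ‖x‖ ^ 2

/-- Potential near `-e`. -/
noncomputable def uZ (e z : E) : ℝ := 1 / 4 - 500 * ‖z + e‖ ^ 2 + 5 / 4 * ⟪e, z + e⟫

/-- Potential near `e`. -/
noncomputable def uY [FiniteDimensional ℝ E] {e : E} (F : Family e) (y : E) : ℝ :=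
  (‖F.P y - y‖⁻¹ + ‖F.P y - F.Z (F.P y)‖⁻¹ + ‖F.Z (F.P y) - y‖⁻¹)
    - u1 (F.P y) - uZ e (F.Z (F.P y))

variable [FiniteDimensional ℝ E]

/-- The dual potential. -/
noncomputable def U {e1 e2 : E} (F1 : Family e1) (F2 : Family e2) (p : E) : ℝ≥0∞ :=
  open Classical in
  if ‖p‖ ≤ 1 / 4 then ENNReal.ofReal (u1 p)
  else if ‖p - e1‖ ≤ 1 / 4 then ENNReal.ofReal (uY F1 p)
  else if ‖p + e1‖ ≤ 1 / 4 then ENNReal.ofReal (uZ e1 p)
  else if ‖p - e2‖ ≤ 1 / 4 then ENNReal.ofReal (uY F2 p)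
  else ENNReal.ofReal (uZ e2 p)

omit [InnerProductSpace ℝ E] [FiniteDimensional ℝ E] in
lemma u1_le (x : E) : u1 x ≤ 2 := by
  unfold u1
  have := sq_nonneg ‖x‖
  linarith

omit [InnerProductSpace ℝ E] [FiniteDimensional ℝ E] in
lemma le_u1 {x : E} (hx : ‖x‖ ≤ 1 / 1000000) : 199 / 100 ≤ u1 x := by
  unfold u1
  have : ‖x‖ ^ 2 ≤ (1 / 1000000) ^ 2 := by gcongr
  linarith

omit [FiniteDimensional ℝ E] in
lemma uZ_bounds {e z : E} (he : ‖e‖ = 1) (hz : ‖z + e‖ ≤ 1 / 1000) :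
    24 / 100 ≤ uZ e z ∧ uZ e z ≤ 26 / 100 := by
  unfold uZ
  have h1 : |⟪e, z + e⟫| ≤ ‖e‖ * ‖z + e‖ := abs_real_inner_le_norm _ _
  rw [he, one_mul] at h1
  have h2 := abs_le.mp (h1.trans hz)
  have h3 : ‖z + e‖ ^ 2 ≤ (1 / 1000) ^ 2 := by gcongr
  have h4 := sq_nonneg ‖z + e‖
  constructor <;> linarith [h2.1, h2.2]

lemma inv_bounds {t a b : ℝ} (ha : 0 < a) (h1 : a ≤ t) (h2 : t ≤ b) :
    b⁻¹ ≤ t⁻¹ ∧ t⁻¹ ≤ a⁻¹ :=
  ⟨inv_anti₀ (ha.trans_le h1) h2, inv_anti₀ ha h1⟩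

lemma uY_eq {e : E} (F : Family e) {x : E} (hx : ‖x‖ ≤ 1 / 1000000) :
    uY F (F.Y x) = (‖x - F.Y x‖⁻¹ + ‖x - F.Z x‖⁻¹ + ‖F.Z x - F.Y x‖⁻¹)
      - u1 x - uZ e (F.Z x) := by
  rw [uY, F.PY x hx]

lemma uY_bounds {e : E} (he : ‖e‖ = 1) (F : Family e) {x : E} (hx : ‖x‖ ≤ 1 / 1000000) :
    21 / 100 ≤ uY F (F.Y x) ∧ uY F (F.Y x) ≤ 30 / 100 := by
  have h := F.stat x hx
  have a1 := inv_bounds (by norm_num) (h.xy he).1 (h.xy he).2
  have a2 := inv_bounds (by norm_num) (h.xz he).1 (h.xz he).2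
  have a3 := inv_bounds (by norm_num) (h.yz he).1 (h.yz he).2
  have a4 := uZ_bounds he h.hz
  have a5 := u1_le x
  have a6 := le_u1 hx
  have a7 : u1 x ≥ 2 - 1 / 100000 := by
    unfold u1
    have : ‖x‖ ^ 2 ≤ (1 / 1000000) ^ 2 := by gcongr
    linarith
  rw [uY_eq F hx]
  norm_num at a1 a2 a3
  constructor <;> linarith [a1.1, a1.2, a2.1, a2.2, a3.1, a3.2, a4.1, a4.2]

/-- Key inequality (real form): `u1 x' + uY y + uZ z'` is below the cost, with a quadratic gain. -/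
lemma tight_real {e : E} (he : ‖e‖ = 1) (F : Family e) {x x' z' : E} (hx : ‖x‖ ≤ 1 / 1000000)
    (h1 : x' ≠ F.Y x) (h2 : x' ≠ z') (h3 : z' ≠ F.Y x) :
    u1 x' + uY F (F.Y x) + uZ e z' + 490 * (‖x' - x‖ ^ 2 + ‖z' - F.Z x‖ ^ 2)
      ≤ ‖x' - F.Y x‖⁻¹ + ‖x' - z'‖⁻¹ + ‖z' - F.Y x‖⁻¹ := by
  have h := Stat.lower he (F.stat x hx) h1 h2 h3
  rw [uY_eq F hx]
  unfold u1 uZ
  linarith

section values

variable {e1 e2 : E} (h1 : ‖e1‖ = 1) (h2 : ‖e2‖ = 1) (h12 : ⟪e1, e2⟫ = 0)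
  (F1 : Family e1) (F2 : Family e2)

omit [FiniteDimensional ℝ E] in
include h1 h2 h12 in
lemma norm_sub_orth : 14 / 10 ≤ ‖e1 - e2‖ ∧ ‖e1 - e2‖ ≤ 142 / 100 := by
  have h : ‖e1 - e2‖ ^ 2 = 2 := by
    rw [@norm_sub_sq_real, h1, h2, h12]; norm_num
  have h0 := norm_nonneg (e1 - e2)
  constructor
  · by_contra hc
    push Not at hc
    nlinarith
  · by_contra hc
    push Not at hc
    nlinarith

omit [FiniteDimensional ℝ E] in
include h1 h2 h12 in
lemma norm_add_orth : 14 / 10 ≤ ‖e1 + e2‖ ∧ ‖e1 + e2‖ ≤ 142 / 100 := by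
  have := norm_sub_orth (e1 := e1) (e2 := -e2) h1 (by rwa [norm_neg]) (by rw [inner_neg_right, h12, neg_zero])
  rwa [sub_neg_eq_add] at this

lemma U_zero {x : E} (hx : ‖x‖ ≤ 1 / 1000000) : U F1 F2 x = ENNReal.ofReal (u1 x) := by
  unfold U
  rw [if_pos (by linarith)]

include h1 in
lemma U_Y1 {x : E} (hx : ‖x‖ ≤ 1 / 1000000) :
    U F1 F2 (F1.Y x) = ENNReal.ofReal (uY F1 (F1.Y x)) := by
  have h := F1.stat x hx
  have hn := norm_near h.hy h1
  unfold U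
  rw [if_neg (by linarith [hn.1]), if_pos (by linarith [h.hy])]

include h1 in
lemma U_Z1 {x : E} (hx : ‖x‖ ≤ 1 / 1000000) :
    U F1 F2 (F1.Z x) = ENNReal.ofReal (uZ e1 (F1.Z x)) := by
  have h := F1.stat x hx
  have hz : ‖F1.Z x - (-e1)‖ ≤ 1 / 1000 := by rw [sub_neg_eq_add]; exact h.hz
  have hn := norm_near hz (b := 1) (by rwa [norm_neg])
  have hz2 : ‖(F1.Z x - e1) - (-((2 : ℝ) • e1))‖ ≤ 1 / 1000 := by
    have : (F1.Z x - e1) - (-((2 : ℝ) • e1)) = F1.Z x + e1 := by rw [two_smul]; abel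
    rw [this]; exact h.hz
  have hn2 := norm_near hz2 (b := 2) (by rw [norm_neg, norm_smul, h1]; norm_num)
  unfold U
  rw [if_neg (by linarith [hn.1]), if_neg (by linarith [hn2.1]), if_pos (by linarith [h.hz])]

include h1 h2 h12 in
lemma U_Y2 {x : E} (hx : ‖x‖ ≤ 1 / 1000000) :
    U F1 F2 (F2.Y x) = ENNReal.ofReal (uY F2 (F2.Y x)) := by
  have h := F2.stat x hx
  have hn := norm_near h.hy h2
  have a := norm_sub_orth h1 h2 h12
  have b := norm_add_orth h1 h2 h12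
  have hz2 : ‖(F2.Y x - e1) - (e2 - e1)‖ ≤ 1 / 200 := by
    have : (F2.Y x - e1) - (e2 - e1) = F2.Y x - e2 := by abel
    rw [this]; exact h.hy
  have hn2 := norm_near hz2 rfl
  rw [norm_sub_rev e2 e1] at hn2
  have hz3 : ‖(F2.Y x + e1) - (e1 + e2)‖ ≤ 1 / 200 := by
    have : (F2.Y x + e1) - (e1 + e2) = F2.Y x - e2 := by abel
    rw [this]; exact h.hy
  have hn3 := norm_near hz3 rfl
  unfold U
  rw [if_neg (by linarith [hn.1]), if_neg (by linarith [hn2.1, a.1]),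
    if_neg (by linarith [hn3.1, b.1]), if_pos (by linarith [h.hy])]

include h1 h2 h12 in
lemma U_Z2 {x : E} (hx : ‖x‖ ≤ 1 / 1000000) :
    U F1 F2 (F2.Z x) = ENNReal.ofReal (uZ e2 (F2.Z x)) := by
  have h := F2.stat x hx
  have hz : ‖F2.Z x - (-e2)‖ ≤ 1 / 1000 := by rw [sub_neg_eq_add]; exact h.hz
  have hn := norm_near hz (b := 1) (by rwa [norm_neg])
  have a := norm_sub_orth h1 h2 h12
  have b := norm_add_orth h1 h2 h12
  have hz2 : ‖(F2.Z x - e1) - (-(e1 + e2))‖ ≤ 1 / 1000 := by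
    have : (F2.Z x - e1) - (-(e1 + e2)) = F2.Z x + e2 := by abel
    rw [this]; exact h.hz
  have hn2 := norm_near hz2 rfl
  rw [norm_neg] at hn2
  have hz3 : ‖(F2.Z x + e1) - (e1 - e2)‖ ≤ 1 / 1000 := by
    have : (F2.Z x + e1) - (e1 - e2) = F2.Z x + e2 := by abel
    rw [this]; exact h.hz
  have hn3 := norm_near hz3 rfl
  have hz4 : ‖(F2.Z x - e2) - (-((2 : ℝ) • e2))‖ ≤ 1 / 1000 := by
    have : (F2.Z x - e2) - (-((2 : ℝ) • e2)) = F2.Z x + e2 := by rw [two_smul]; abel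
    rw [this]; exact h.hz
  have hn4 := norm_near hz4 (b := 2) (by rw [norm_neg, norm_smul, h2]; norm_num)
  unfold U
  rw [if_neg (by linarith [hn.1]), if_neg (by linarith [hn2.1, b.1]),
    if_neg (by linarith [hn3.1, a.1]), if_neg (by linarith [hn4.1])]

/-- Points of the support. -/
inductive Pt (F1 : Family e1) (F2 : Family e2) : E → Prop
  | zero (x : E) (hx : ‖x‖ ≤ 1 / 1000000) : Pt F1 F2 x
  | Y1 (x : E) (hx : ‖x‖ ≤ 1 / 1000000) : Pt F1 F2 (F1.Y x)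
  | Z1 (x : E) (hx : ‖x‖ ≤ 1 / 1000000) : Pt F1 F2 (F1.Z x)
  | Y2 (x : E) (hx : ‖x‖ ≤ 1 / 1000000) : Pt F1 F2 (F2.Y x)
  | Z2 (x : E) (hx : ‖x‖ ≤ 1 / 1000000) : Pt F1 F2 (F2.Z x)

/-- An outer point of the support, recorded with the centre it is close to. -/
structure Outer (F1 : Family e1) (F2 : Family e2) (c p : E) : Prop where
  near : ‖p - c‖ ≤ 1 / 200
  norm_c : ‖c‖ = 1
  U_le : U F1 F2 p ≤ ENNReal.ofReal (3 / 10)

include h1 in
lemma outerY1 {x : E} (hx : ‖x‖ ≤ 1 / 1000000) : Outer F1 F2 e1 (F1.Y x) :=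
  ⟨(F1.stat x hx).hy, h1, by
    rw [U_Y1 h1 F1 F2 hx]
    exact ENNReal.ofReal_le_ofReal (by linarith [(uY_bounds h1 F1 hx).2])⟩

include h1 in
lemma outerZ1 {x : E} (hx : ‖x‖ ≤ 1 / 1000000) : Outer F1 F2 (-e1) (F1.Z x) :=
  ⟨by rw [sub_neg_eq_add]; linarith [(F1.stat x hx).hz], by rwa [norm_neg], by
    rw [U_Z1 h1 F1 F2 hx]
    exact ENNReal.ofReal_le_ofReal (by linarith [(uZ_bounds h1 (F1.stat x hx).hz).2])⟩

include h1 h2 h12 in
lemma outerY2 {x : E} (hx : ‖x‖ ≤ 1 / 1000000) : Outer F1 F2 e2 (F2.Y x) :=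
  ⟨(F2.stat x hx).hy, h2, by
    rw [U_Y2 h1 h2 h12 F1 F2 hx]
    exact ENNReal.ofReal_le_ofReal (by linarith [(uY_bounds h2 F2 hx).2])⟩

include h1 h2 h12 in
lemma outerZ2 {x : E} (hx : ‖x‖ ≤ 1 / 1000000) : Outer F1 F2 (-e2) (F2.Z x) :=
  ⟨by rw [sub_neg_eq_add]; linarith [(F2.stat x hx).hz], by rwa [norm_neg], by
    rw [U_Z2 h1 h2 h12 F1 F2 hx]
    exact ENNReal.ofReal_le_ofReal (by linarith [(uZ_bounds h2 (F2.stat x hx).hz).2])⟩

lemma Outer.norm_le {F1 : Family e1} {F2 : Family e2} {c p : E} (h : Outer F1 F2 c p) :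
    ‖p‖ ≤ 1005 / 1000 := by
  have := (norm_near h.near h.norm_c).2
  linarith

/-- Slackness with two outer points at distance at most `3 / 2`. -/
lemma slack_one {F1 : Family e1} {F2 : Family e2} {c c' p q x : E} (hx : ‖x‖ ≤ 1 / 1000000)
    (hp : Outer F1 F2 c p) (hq : Outer F1 F2 c' q) (hc : ‖c - c'‖ ≤ 142 / 100) :
    U F1 F2 x + U F1 F2 p + U F1 F2 q < gcost x p q := by
  have hxp : ‖x - p‖ ≤ 101 / 100 := by
    have := norm_sub_le x p
    linarith [hp.norm_le]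
  have hxq : ‖x - q‖ ≤ 101 / 100 := by
    have := norm_sub_le x q
    linarith [hq.norm_le]
  have hpq : ‖p - q‖ ≤ 3 / 2 := by
    have : p - q = (p - c) - (q - c') + (c - c') := by abel
    rw [this]
    have i1 := norm_add_le ((p - c) - (q - c')) (c - c')
    have i2 := norm_sub_le (p - c) (q - c')
    linarith [hp.near, hq.near]
  have k1 := one_div_edist_ge (by norm_num) hxp
  have k2 := one_div_edist_ge (by norm_num) hxq
  have k3 := one_div_edist_ge (by norm_num) hpq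
  have hU : U F1 F2 x ≤ ENNReal.ofReal 2 := by
    rw [U_zero F1 F2 hx]
    exact ENNReal.ofReal_le_ofReal (u1_le x)
  calc U F1 F2 x + U F1 F2 p + U F1 F2 q
      ≤ ENNReal.ofReal 2 + ENNReal.ofReal (3 / 10) + ENNReal.ofReal (3 / 10) :=
        add_le_add (add_le_add hU hp.U_le) hq.U_le
    _ = ENNReal.ofReal (2 + 3 / 10 + 3 / 10) := by
        rw [ENNReal.ofReal_add (by norm_num) (by norm_num),
          ENNReal.ofReal_add (by norm_num) (by norm_num)]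
    _ < ENNReal.ofReal ((101 / 100)⁻¹ + (101 / 100)⁻¹ + (3 / 2)⁻¹) := by
        rw [ENNReal.ofReal_lt_ofReal_iff (by norm_num)]
        norm_num
    _ = ENNReal.ofReal (101 / 100)⁻¹ + ENNReal.ofReal (101 / 100)⁻¹
          + ENNReal.ofReal (3 / 2)⁻¹ := by
        rw [ENNReal.ofReal_add (by norm_num) (by norm_num),
          ENNReal.ofReal_add (by norm_num) (by norm_num)]
    _ ≤ gcost x p q := add_le_add (add_le_add k1 k2) k3

/-- Slackness with three outer points. -/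
lemma slack_outer {F1 : Family e1} {F2 : Family e2} {c c' c'' p q s : E}
    (hp : Outer F1 F2 c p) (hq : Outer F1 F2 c' q) (hs : Outer F1 F2 c'' s) :
    U F1 F2 p + U F1 F2 q + U F1 F2 s ≤ gcost p q s := by
  have hxp : ‖p - q‖ ≤ 202 / 100 := by
    have := norm_sub_le p q
    linarith [hp.norm_le, hq.norm_le]
  have hxq : ‖p - s‖ ≤ 202 / 100 := by
    have := norm_sub_le p s
    linarith [hp.norm_le, hs.norm_le]
  have hpq : ‖q - s‖ ≤ 202 / 100 := by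
    have := norm_sub_le q s
    linarith [hq.norm_le, hs.norm_le]
  have k1 := one_div_edist_ge (by norm_num) hxp
  have k2 := one_div_edist_ge (by norm_num) hxq
  have k3 := one_div_edist_ge (by norm_num) hpq
  have k : ENNReal.ofReal (3 / 10) ≤ ENNReal.ofReal (202 / 100)⁻¹ :=
    ENNReal.ofReal_le_ofReal (by norm_num)
  exact add_le_add (add_le_add (hp.U_le.trans (k.trans k1)) (hq.U_le.trans (k.trans k2)))
    (hs.U_le.trans (k.trans k3))

include h1 h2 h12 in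
lemma U_le_two {p : E} (hp : Pt F1 F2 p) : U F1 F2 p ≤ ENNReal.ofReal 2 := by
  have k : ENNReal.ofReal (3 / 10) ≤ ENNReal.ofReal 2 :=
    ENNReal.ofReal_le_ofReal (by norm_num)
  cases hp with
  | zero _ hx => rw [U_zero F1 F2 hx]; exact ENNReal.ofReal_le_ofReal (u1_le _)
  | Y1 x hx => exact (outerY1 h1 F1 F2 hx).U_le.trans k
  | Z1 x hx => exact (outerZ1 h1 F1 F2 hx).U_le.trans k
  | Y2 x hx => exact (outerY2 h1 h2 h12 F1 F2 hx).U_le.trans k
  | Z2 x hx => exact (outerZ2 h1 h2 h12 F1 F2 hx).U_le.trans k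

include h1 h2 h12 in
/-- Slackness with two central points. -/
lemma slack_two {x y z : E} (hx : ‖x‖ ≤ 1 / 1000000) (hy : ‖y‖ ≤ 1 / 1000000)
    (hz : Pt F1 F2 z) :
    U F1 F2 x + U F1 F2 y + U F1 F2 z < gcost x y z := by
  have hxy : ‖x - y‖ ≤ 1 / 100 := by
    have := norm_sub_le x y
    linarith
  have k1 := one_div_edist_ge (by norm_num) hxy
  calc U F1 F2 x + U F1 F2 y + U F1 F2 z
      ≤ ENNReal.ofReal 2 + ENNReal.ofReal 2 + ENNReal.ofReal 2 :=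
        add_le_add (add_le_add (U_le_two h1 h2 h12 F1 F2 (Pt.zero x hx))
          (U_le_two h1 h2 h12 F1 F2 (Pt.zero y hy))) (U_le_two h1 h2 h12 F1 F2 hz)
    _ = ENNReal.ofReal (2 + 2 + 2) := by
        rw [ENNReal.ofReal_add (by norm_num) (by norm_num),
          ENNReal.ofReal_add (by norm_num) (by norm_num)]
    _ < ENNReal.ofReal (1 / 100)⁻¹ := by
        rw [ENNReal.ofReal_lt_ofReal_iff (by norm_num)]
        norm_num
    _ ≤ 1 / edist x y := k1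
    _ ≤ gcost x y z := by
        unfold gcost
        rw [add_assoc]
        exact le_self_add

/-- The tight family: general form. -/
lemma tight_gen {e : E} (he : ‖e‖ = 1) (F : Family e) {x x' x'' : E}
    (hx : ‖x‖ ≤ 1 / 1000000) (hx' : ‖x'‖ ≤ 1 / 1000000) (hx'' : ‖x''‖ ≤ 1 / 1000000) :
    ENNReal.ofReal (u1 x') + ENNReal.ofReal (uY F (F.Y x)) + ENNReal.ofReal (uZ e (F.Z x''))
      ≤ gcost x' (F.Y x) (F.Z x'') ∧
    (ENNReal.ofReal (u1 x') + ENNReal.ofReal (uY F (F.Y x))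
        + ENNReal.ofReal (uZ e (F.Z x'')) = gcost x' (F.Y x) (F.Z x'') → x' = x) := by
  have hY := (F.stat x hx).hy
  have hZ := (F.stat x'' hx'').hz
  have hYn := norm_near hY he
  have hZ' : ‖F.Z x'' - (-e)‖ ≤ 1 / 1000 := by rw [sub_neg_eq_add]; exact hZ
  have hZn := norm_near hZ' (b := 1) (by rwa [norm_neg])
  have n1 : x' ≠ F.Y x := by
    intro h
    rw [← h] at hYn
    linarith [hYn.1]
  have n2 : x' ≠ F.Z x'' := by
    intro h
    rw [← h] at hZn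
    linarith [hZn.1]
  have n3 : F.Z x'' ≠ F.Y x := by
    intro h
    rw [h] at hZ
    have : ‖(2 : ℝ) • e‖ ≤ 1 / 1000 + 1 / 200 := by
      have e3 : (2 : ℝ) • e = (F.Y x + e) - (F.Y x - e) := by rw [two_smul]; abel
      rw [e3]
      exact (norm_sub_le _ _).trans (add_le_add hZ hY)
    rw [norm_smul, he] at this
    norm_num at this
  have key := tight_real he F hx n1 n2 n3
  have b1 := le_u1 hx'
  have b2 := (uY_bounds he F hx).1
  have b3 := (uZ_bounds he hZ).1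
  rw [gcost_eq n1 n2 n3.symm,
    ← ENNReal.ofReal_add (by linarith) (by linarith),
    ← ENNReal.ofReal_add (by linarith) (by linarith)]
  have s1 := sq_nonneg ‖x' - x‖
  have s2 := sq_nonneg ‖F.Z x'' - F.Z x‖
  refine ⟨ENNReal.ofReal_le_ofReal (by linarith), ?_⟩
  intro h
  have h' : ENNReal.ofReal (‖x' - F.Y x‖⁻¹ + ‖x' - F.Z x''‖⁻¹ + ‖F.Z x'' - F.Y x‖⁻¹) ≤
      ENNReal.ofReal (u1 x' + uY F (F.Y x) + uZ e (F.Z x'')) := h.ge
  rw [ENNReal.ofReal_le_ofReal_iff (by linarith)] at h'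
  have : ‖x' - x‖ ^ 2 = 0 := by linarith
  exact sub_eq_zero.mp (norm_eq_zero.mp (pow_eq_zero_iff (two_ne_zero) |>.mp this))

/-- The cost at a stationary triple is exactly the sum of the potentials. -/
lemma tight_eq {e : E} (he : ‖e‖ = 1) (F : Family e) {x : E} (hx : ‖x‖ ≤ 1 / 1000000) :
    ENNReal.ofReal (u1 x) + ENNReal.ofReal (uY F (F.Y x)) + ENNReal.ofReal (uZ e (F.Z x))
      = gcost x (F.Y x) (F.Z x) := by
  have h := F.stat x hx
  have a1 := h.xy he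
  have a2 := h.xz he
  have a3 := h.yz he
  have n1 : x ≠ F.Y x := sub_ne_zero.mp (Stat.ne_of_norm (by norm_num) a1.1)
  have n2 : x ≠ F.Z x := sub_ne_zero.mp (Stat.ne_of_norm (by norm_num) a2.1)
  have n3 : F.Z x ≠ F.Y x := sub_ne_zero.mp (Stat.ne_of_norm (by norm_num) a3.1)
  have b1 := le_u1 hx
  have b2 := (uY_bounds he F hx).1
  have b3 := (uZ_bounds he h.hz).1
  rw [gcost_eq n1 n2 n3.symm,
    ← ENNReal.ofReal_add (by linarith) (by linarith),
    ← ENNReal.ofReal_add (by linarith) (by linarith), uY_eq F hx]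
  congr 1
  ring

include h1 h2 h12 in
/-- Main inequality with one central point. -/
theorem main_central {x p q : E} (hx : ‖x‖ ≤ 1 / 1000000) (hp : Pt F1 F2 p)
    (hq : Pt F1 F2 q) :
    U F1 F2 x + U F1 F2 p + U F1 F2 q ≤ gcost x p q ∧
    (U F1 F2 x + U F1 F2 p + U F1 F2 q = gcost x p q →
      (p = F1.Y x ∨ q = F1.Y x) ∨ (p = F2.Y x ∨ q = F2.Y x)) := by
  have a := (norm_sub_orth h1 h2 h12).2
  have b := (norm_add_orth h1 h2 h12).2
  -- strict inequality suffices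
  have strict : U F1 F2 x + U F1 F2 p + U F1 F2 q < gcost x p q →
      U F1 F2 x + U F1 F2 p + U F1 F2 q ≤ gcost x p q ∧
      (U F1 F2 x + U F1 F2 p + U F1 F2 q = gcost x p q →
        (p = F1.Y x ∨ q = F1.Y x) ∨ (p = F2.Y x ∨ q = F2.Y x)) := fun h =>
    ⟨h.le, fun h' => absurd h' h.ne⟩
  have oY1 := fun {x : E} (hx : ‖x‖ ≤ 1 / 1000000) => outerY1 h1 F1 F2 hx
  have oZ1 := fun {x : E} (hx : ‖x‖ ≤ 1 / 1000000) => outerZ1 h1 F1 F2 hx
  have oY2 := fun {x : E} (hx : ‖x‖ ≤ 1 / 1000000) => outerY2 h1 h2 h12 F1 F2 hx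
  have oZ2 := fun {x : E} (hx : ‖x‖ ≤ 1 / 1000000) => outerZ2 h1 h2 h12 F1 F2 hx
  have c0 : ∀ c : E, ‖c - c‖ ≤ 142 / 100 := fun c => by rw [sub_self, norm_zero]; norm_num
  have c1 : ‖e1 - -e2‖ ≤ 142 / 100 := by rwa [sub_neg_eq_add]
  have c2 : ‖-e1 - e2‖ ≤ 142 / 100 := by rw [← norm_neg]; rwa [neg_sub, sub_neg_eq_add, add_comm]
  have c3 : ‖-e1 - -e2‖ ≤ 142 / 100 := by
    rw [← norm_neg]
    have : -(-e1 - -e2) = e1 - e2 := by abel
    rwa [this]
  have d0 : ‖e2 - e1‖ ≤ 142 / 100 := by rwa [norm_sub_rev]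
  have d1 : ‖-e2 - e1‖ ≤ 142 / 100 := by rwa [norm_sub_rev]
  have d2 : ‖e2 - -e1‖ ≤ 142 / 100 := by rwa [norm_sub_rev]
  have d3 : ‖-e2 - -e1‖ ≤ 142 / 100 := by rwa [norm_sub_rev]
  cases hp with
  | zero _ hp => exact strict (slack_two h1 h2 h12 F1 F2 hx hp hq)
  | Y1 y hy =>
    cases hq with
    | zero _ hq =>
      apply strict
      rw [gcost_swap, add_right_comm]
      exact slack_two h1 h2 h12 F1 F2 hx hq (Pt.Y1 y hy)
    | Y1 z hz => exact strict (slack_one hx (oY1 hy) (oY1 hz) (c0 _))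
    | Z1 z hz =>
      have := tight_gen h1 F1 hy hx hz
      rw [U_zero F1 F2 hx, U_Y1 h1 F1 F2 hy, U_Z1 h1 F1 F2 hz]
      refine ⟨this.1, fun h => Or.inl (Or.inl ?_)⟩
      rw [this.2 h]
    | Y2 z hz => exact strict (slack_one hx (oY1 hy) (oY2 hz) a)
    | Z2 z hz => exact strict (slack_one hx (oY1 hy) (oZ2 hz) c1)
  | Z1 y hy =>
    cases hq with
    | zero _ hq =>
      apply strict
      rw [gcost_swap, add_right_comm]
      exact slack_two h1 h2 h12 F1 F2 hx hq (Pt.Z1 y hy)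
    | Y1 z hz =>
      have := tight_gen h1 F1 hz hx hy
      rw [gcost_swap, add_right_comm, U_zero F1 F2 hx, U_Y1 h1 F1 F2 hz, U_Z1 h1 F1 F2 hy]
      refine ⟨this.1, fun h => Or.inl (Or.inr ?_)⟩
      rw [this.2 h]
    | Z1 z hz => exact strict (slack_one hx (oZ1 hy) (oZ1 hz) (c0 _))
    | Y2 z hz => exact strict (slack_one hx (oZ1 hy) (oY2 hz) c2)
    | Z2 z hz => exact strict (slack_one hx (oZ1 hy) (oZ2 hz) c3)
  | Y2 y hy =>
    cases hq with
    | zero _ hq =>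
      apply strict
      rw [gcost_swap, add_right_comm]
      exact slack_two h1 h2 h12 F1 F2 hx hq (Pt.Y2 y hy)
    | Y1 z hz => exact strict (slack_one hx (oY2 hy) (oY1 hz) d0)
    | Z1 z hz => exact strict (slack_one hx (oY2 hy) (oZ1 hz) d2)
    | Y2 z hz => exact strict (slack_one hx (oY2 hy) (oY2 hz) (c0 _))
    | Z2 z hz =>
      have := tight_gen h2 F2 hy hx hz
      rw [U_zero F1 F2 hx, U_Y2 h1 h2 h12 F1 F2 hy, U_Z2 h1 h2 h12 F1 F2 hz]
      refine ⟨this.1, fun h => Or.inr (Or.inl ?_)⟩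
      rw [this.2 h]
  | Z2 y hy =>
    cases hq with
    | zero _ hq =>
      apply strict
      rw [gcost_swap, add_right_comm]
      exact slack_two h1 h2 h12 F1 F2 hx hq (Pt.Z2 y hy)
    | Y1 z hz => exact strict (slack_one hx (oZ2 hy) (oY1 hz) d1)
    | Z1 z hz => exact strict (slack_one hx (oZ2 hy) (oZ1 hz) d3)
    | Y2 z hz =>
      have := tight_gen h2 F2 hz hx hy
      rw [gcost_swap, add_right_comm, U_zero F1 F2 hx, U_Y2 h1 h2 h12 F1 F2 hz,
        U_Z2 h1 h2 h12 F1 F2 hy]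
      refine ⟨this.1, fun h => Or.inr (Or.inr ?_)⟩
      rw [this.2 h]
    | Z2 z hz => exact strict (slack_one hx (oZ2 hy) (oZ2 hz) (c0 _))

include h1 h2 h12 in
lemma Pt.outer_or {p : E} (hp : Pt F1 F2 p) : ‖p‖ ≤ 1 / 1000000 ∨ ∃ c, Outer F1 F2 c p := by
  cases hp with
  | zero _ hx => exact Or.inl hx
  | Y1 x hx => exact Or.inr ⟨_, outerY1 h1 F1 F2 hx⟩
  | Z1 x hx => exact Or.inr ⟨_, outerZ1 h1 F1 F2 hx⟩
  | Y2 x hx => exact Or.inr ⟨_, outerY2 h1 h2 h12 F1 F2 hx⟩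
  | Z2 x hx => exact Or.inr ⟨_, outerZ2 h1 h2 h12 F1 F2 hx⟩

include h1 h2 h12 in
/-- Dual feasibility on the whole support. -/
theorem main_ineq {x y z : E} (hx : Pt F1 F2 x) (hy : Pt F1 F2 y) (hz : Pt F1 F2 z) :
    U F1 F2 x + U F1 F2 y + U F1 F2 z ≤ gcost x y z := by
  rcases hx.outer_or h1 h2 h12 with hx' | ⟨c, hx'⟩
  · exact (main_central h1 h2 h12 F1 F2 hx' hy hz).1
  rcases hy.outer_or h1 h2 h12 with hy' | ⟨c', hy'⟩
  · rw [gcost_rot, add_comm (U F1 F2 x)]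
    exact (main_central h1 h2 h12 F1 F2 hy' hx hz).1
  rcases hz.outer_or h1 h2 h12 with hz' | ⟨c'', hz'⟩
  · have := (main_central h1 h2 h12 F1 F2 hz' hx hy).1
    rw [gcost_rot']
    refine le_trans (le_of_eq ?_) this
    ring
  exact slack_outer hx' hy' hz'

end values

end Vale.Agent.P121
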