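import Mathlib
import Vale.Agent.P121.Defs
import Vale.Agent.P121.Potential

/-!
The counterexample measure and the proof that no Monge plan is optimal.
-/

namespace Vale.Agent.P121

open scoped RealInnerProductSpace NNReal ENNReal
open MeasureTheory

variable {d : ℕ}

/-- The small closed ball around the origin. -/
def ball0 (d : ℕ) : Set (Space d) := Metric.closedBall 0 (1 / 1000000)

lemma mem_ball0 {x : Space d} : x ∈ ball0 d ↔ ‖x‖ ≤ 1 / 1000000 := by
  rw [ball0, mem_closedBall_zero_iff]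

lemma isCompact_ball0 : IsCompact (ball0 d) := isCompact_closedBall _ _

lemma measurableSet_ball0 : MeasurableSet (ball0 d) := isCompact_ball0.measurableSet

lemma volume_ball0_ne_zero : volume (ball0 d) ≠ 0 :=
  (Metric.measure_closedBall_pos volume (0 : Space d) (by norm_num)).ne'

lemma volume_ball0_ne_top : volume (ball0 d) ≠ ∞ := isCompact_ball0.measure_lt_top.ne

/-- The uniform probability measure on the small ball. -/
noncomputable def lam (d : ℕ) : Measure (Space d) :=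
  (volume (ball0 d))⁻¹ • volume.restrict (ball0 d)

instance : IsProbabilityMeasure (lam d) := by
  constructor
  rw [lam, Measure.smul_apply, Measure.restrict_apply_univ, smul_eq_mul]
  exact ENNReal.inv_mul_cancel volume_ball0_ne_zero volume_ball0_ne_top

lemma lam_ae : ∀ᵐ x ∂(lam d), ‖x‖ ≤ 1 / 1000000 := by
  rw [lam]
  apply Measure.ae_smul_measure
  filter_upwards [ae_restrict_mem (μ := volume) (measurableSet_ball0 (d := d))] with x hx
  exact mem_ball0.mp hx

section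

variable {e1 e2 : Space d} (F1 : Family e1) (F2 : Family e2)

lemma measY {e : Space d} (F : Family e) : Measurable F.Y := F.contY.measurable
lemma measZ {e : Space d} (F : Family e) : Measurable F.Z := F.contZ.measurable
lemma measP {e : Space d} (F : Family e) : Measurable F.P := F.lipP.continuous.measurable
lemma measQ {e : Space d} (F : Family e) : Measurable F.Q := F.lipQ.continuous.measurable

/-- The counterexample. -/
noncomputable def mu : Measure (Space d) :=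
  (6 : ℝ≥0∞)⁻¹ • (lam d + lam d + (lam d).map F1.Y + (lam d).map F1.Z + (lam d).map F2.Y
    + (lam d).map F2.Z)

instance : IsProbabilityMeasure (mu F1 F2) := by
  constructor
  have h : ∀ f : Space d → Space d, Measurable f → (lam d).map f Set.univ = 1 := by
    intro f hf
    rw [Measure.map_apply hf MeasurableSet.univ, Set.preimage_univ, measure_univ]
  rw [mu, Measure.smul_apply]
  simp only [Measure.add_apply]
  rw [h _ (measY F1), h _ (measZ F1), h _ (measY F2), h _ (measZ F2), measure_univ, smul_eq_mul]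
  have : (1 : ℝ≥0∞) + 1 + 1 + 1 + 1 + 1 = 6 := by norm_num
  rw [this]
  exact ENNReal.inv_mul_cancel (by norm_num) (by norm_num)

lemma lintegral_mu {f : Space d → ℝ≥0∞} (hf : Measurable f) :
    ∫⁻ p, f p ∂(mu F1 F2) = 6⁻¹ * (∫⁻ x, f x ∂(lam d) + ∫⁻ x, f x ∂(lam d)
      + ∫⁻ x, f (F1.Y x) ∂(lam d) + ∫⁻ x, f (F1.Z x) ∂(lam d)
      + ∫⁻ x, f (F2.Y x) ∂(lam d) + ∫⁻ x, f (F2.Z x) ∂(lam d)) := by
  rw [mu, lintegral_smul_measure]
  simp only [lintegral_add_measure]
  rw [lintegral_map hf (measY F1), lintegral_map hf (measZ F1), lintegral_map hf (measY F2),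
    lintegral_map hf (measZ F2), smul_eq_mul]

lemma measurable_u1 : Measurable (u1 : Space d → ℝ) := by
  unfold u1
  fun_prop

lemma measurable_uZ (e : Space d) : Measurable (uZ e) := by
  unfold uZ
  fun_prop

lemma measurable_uY {e : Space d} (F : Family e) : Measurable (uY F) := by
  have h1 := measP F
  have h2 := measZ F
  have h3 : Measurable fun y => F.Z (F.P y) := h2.comp h1
  have h4 : Measurable fun y => u1 (F.P y) := measurable_u1.comp h1
  have h5 : Measurable fun y => uZ e (F.Z (F.P y)) := (measurable_uZ e).comp h3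
  unfold uY
  exact (((((h1.sub measurable_id).norm.inv).add ((h1.sub h3).norm.inv)).add
    ((h3.sub measurable_id).norm.inv)).sub h4).sub h5

lemma measurable_U : Measurable (U F1 F2) := by
  classical
  have hs : ∀ c : Space d, MeasurableSet {p : Space d | ‖p - c‖ ≤ 1 / 4} := fun c =>
    measurableSet_le (by fun_prop) (by fun_prop)
  have hs0 : MeasurableSet {p : Space d | ‖p‖ ≤ 1 / 4} :=
    measurableSet_le (by fun_prop) (by fun_prop)
  have hs1 : MeasurableSet {p : Space d | ‖p + e1‖ ≤ 1 / 4} :=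
    measurableSet_le (by fun_prop) (by fun_prop)
  unfold U
  refine Measurable.ite hs0 (measurable_u1.ennreal_ofReal) ?_
  refine Measurable.ite (hs e1) ((measurable_uY F1).ennreal_ofReal) ?_
  refine Measurable.ite hs1 ((measurable_uZ e1).ennreal_ofReal) ?_
  exact Measurable.ite (hs e2) ((measurable_uY F2).ennreal_ofReal)
    ((measurable_uZ e2).ennreal_ofReal)

lemma measurable_gcost :
    Measurable fun p : Space d × Space d × Space d => gcost p.1 p.2.1 p.2.2 := by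
  unfold gcost
  have h1 : Measurable fun p : Space d × Space d × Space d => edist p.1 p.2.1 :=
    measurable_fst.edist (measurable_fst.comp measurable_snd)
  have h2 : Measurable fun p : Space d × Space d × Space d => edist p.1 p.2.2 :=
    measurable_fst.edist (measurable_snd.comp measurable_snd)
  have h3 : Measurable fun p : Space d × Space d × Space d => edist p.2.1 p.2.2 :=
    (measurable_fst.comp measurable_snd).edist (measurable_snd.comp measurable_snd)
  exact ((measurable_const.div h1).add (measurable_const.div h2)).add (measurable_const.div h3)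

/-- The support. -/
def supp : Set (Space d) := {p | Pt F1 F2 p}

lemma supp_eq : supp F1 F2 = ball0 d ∪ F1.Y '' ball0 d ∪ F1.Z '' ball0 d ∪ F2.Y '' ball0 d
    ∪ F2.Z '' ball0 d := by
  ext p
  constructor
  · intro h
    cases h with
    | zero _ hx => exact Or.inl (Or.inl (Or.inl (Or.inl (mem_ball0.mpr hx))))
    | Y1 x hx => exact Or.inl (Or.inl (Or.inl (Or.inr ⟨x, mem_ball0.mpr hx, rfl⟩)))
    | Z1 x hx => exact Or.inl (Or.inl (Or.inr ⟨x, mem_ball0.mpr hx, rfl⟩))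
    | Y2 x hx => exact Or.inl (Or.inr ⟨x, mem_ball0.mpr hx, rfl⟩)
    | Z2 x hx => exact Or.inr ⟨x, mem_ball0.mpr hx, rfl⟩
  · rintro ((((h | ⟨x, hx, rfl⟩) | ⟨x, hx, rfl⟩) | ⟨x, hx, rfl⟩) | ⟨x, hx, rfl⟩)
    · exact Pt.zero _ (mem_ball0.mp h)
    · exact Pt.Y1 _ (mem_ball0.mp hx)
    · exact Pt.Z1 _ (mem_ball0.mp hx)
    · exact Pt.Y2 _ (mem_ball0.mp hx)
    · exact Pt.Z2 _ (mem_ball0.mp hx)

lemma isCompact_supp : IsCompact (supp F1 F2) := by
  rw [supp_eq]
  exact ((((isCompact_ball0.union (isCompact_ball0.image F1.contY)).union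
    (isCompact_ball0.image F1.contZ)).union (isCompact_ball0.image F2.contY)).union
    (isCompact_ball0.image F2.contZ))

lemma measurableSet_supp : MeasurableSet (supp F1 F2) := (isCompact_supp F1 F2).measurableSet

lemma mu_ae_iff {s : Set (Space d)} (hs : MeasurableSet s) : (∀ᵐ p ∂(mu F1 F2), p ∈ s) ↔
    (∀ᵐ x ∂(lam d), x ∈ s ∧ F1.Y x ∈ s ∧ F1.Z x ∈ s ∧ F2.Y x ∈ s ∧ F2.Z x ∈ s) := by
  have h6 : (6 : ℝ≥0∞)⁻¹ ≠ 0 := ENNReal.inv_ne_zero.mpr (by norm_num)
  rw [mu, Measure.ae_ennreal_smul_measure_iff h6]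
  simp only [ae_add_measure_iff]
  have hm : ∀ f : Space d → Space d, Measurable f →
      ((∀ᵐ x ∂((lam d).map f), x ∈ s) ↔ ∀ᵐ x ∂(lam d), f x ∈ s) := fun f hf =>
    ae_map_iff hf.aemeasurable hs
  rw [hm _ (measY F1), hm _ (measZ F1), hm _ (measY F2), hm _ (measZ F2)]
  simp only [Filter.eventually_and]
  tauto

lemma mu_ae_supp : ∀ᵐ p ∂(mu F1 F2), Pt F1 F2 p := by
  have := (mu_ae_iff F1 F2 (measurableSet_supp F1 F2)).mpr (by
    filter_upwards [lam_ae (d := d)] with x hx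
    exact ⟨Pt.zero x hx, Pt.Y1 x hx, Pt.Z1 x hx, Pt.Y2 x hx, Pt.Z2 x hx⟩)
  exact this

lemma lam_ae_of_mu_ae {p : Space d → Prop} (h : ∀ᵐ x ∂(mu F1 F2), p x) :
    ∀ᵐ x ∂(lam d), p x := by
  have h6 : (6 : ℝ≥0∞)⁻¹ ≠ 0 := ENNReal.inv_ne_zero.mpr (by norm_num)
  rw [mu, Measure.ae_ennreal_smul_measure_iff h6] at h
  simp only [ae_add_measure_iff] at h
  exact h.1.1.1.1.1

variable (h1 : ‖e1‖ = 1) (h2 : ‖e2‖ = 1) (h12 : ⟪e1, e2⟫ = 0)

include h1 h2 h12 in
lemma lintegral_U_ne_top : ∫⁻ p, U F1 F2 p ∂(mu F1 F2) ≠ ∞ := by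
  have : ∫⁻ p, U F1 F2 p ∂(mu F1 F2) ≤ ∫⁻ _, ENNReal.ofReal 2 ∂(mu F1 F2) := by
    apply lintegral_mono_ae
    filter_upwards [mu_ae_supp F1 F2] with p hp
    exact U_le_two h1 h2 h12 F1 F2 hp
  refine ne_top_of_le_ne_top ?_ this
  rw [lintegral_const, measure_univ, mul_one]
  exact ENNReal.ofReal_ne_top

include h1 h2 h12 in
lemma lower_bound {π : Measure (Space d × Space d × Space d)} (hπ : π ∈ couplings (mu F1 F2)) :
    3 * ∫⁻ p, U F1 F2 p ∂(mu F1 F2) ≤ ∫⁻ p, gcost p.1 p.2.1 p.2.2 ∂π := by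
  obtain ⟨-, m1, m2, m3⟩ := hπ
  have hU := measurable_U F1 F2
  have f1 : Measurable fun p : Space d × Space d × Space d => p.1 := measurable_fst
  have f2 : Measurable fun p : Space d × Space d × Space d => p.2.1 :=
    measurable_fst.comp measurable_snd
  have f3 : Measurable fun p : Space d × Space d × Space d => p.2.2 :=
    measurable_snd.comp measurable_snd
  have i1 : ∫⁻ p, U F1 F2 p ∂(mu F1 F2) = ∫⁻ p, U F1 F2 p.1 ∂π := by
    rw [← lintegral_map hU f1, m1]
  have i2 : ∫⁻ p, U F1 F2 p ∂(mu F1 F2) = ∫⁻ p, U F1 F2 p.2.1 ∂π := by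
    rw [← lintegral_map hU f2, m2]
  have i3 : ∫⁻ p, U F1 F2 p ∂(mu F1 F2) = ∫⁻ p, U F1 F2 p.2.2 ∂π := by
    rw [← lintegral_map hU f3, m3]
  have a1 : ∀ᵐ p ∂π, Pt F1 F2 p.1 := by
    apply ae_of_ae_map f1.aemeasurable
    rw [m1]; exact mu_ae_supp F1 F2
  have a2 : ∀ᵐ p ∂π, Pt F1 F2 p.2.1 := by
    apply ae_of_ae_map f2.aemeasurable
    rw [m2]; exact mu_ae_supp F1 F2
  have a3 : ∀ᵐ p ∂π, Pt F1 F2 p.2.2 := by
    apply ae_of_ae_map f3.aemeasurable
    rw [m3]; exact mu_ae_supp F1 F2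
  calc 3 * ∫⁻ p, U F1 F2 p ∂(mu F1 F2)
      = ∫⁻ p, U F1 F2 p ∂(mu F1 F2) + ∫⁻ p, U F1 F2 p ∂(mu F1 F2)
        + ∫⁻ p, U F1 F2 p ∂(mu F1 F2) := by ring
    _ = ∫⁻ p, U F1 F2 p.1 ∂π + ∫⁻ p, U F1 F2 p.2.1 ∂π + ∫⁻ p, U F1 F2 p.2.2 ∂π := by
        rw [← i1, ← i2, ← i3]
    _ = ∫⁻ p, (U F1 F2 p.1 + U F1 F2 p.2.1 + U F1 F2 p.2.2) ∂π := by
        have q1 : Measurable fun p : Space d × Space d × Space d => U F1 F2 p.1 := hU.comp f1
        have q2 : Measurable fun p : Space d × Space d × Space d =>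
          U F1 F2 p.1 + U F1 F2 p.2.1 := (hU.comp f1).add (hU.comp f2)
        rw [lintegral_add_left q2, lintegral_add_left q1]
    _ ≤ ∫⁻ p, gcost p.1 p.2.1 p.2.2 ∂π := by
        apply lintegral_mono_ae
        filter_upwards [a1, a2, a3] with p b1 b2 b3
        exact main_ineq h1 h2 h12 F1 F2 b1 b2 b3

/-- The optimal plan. -/
noncomputable def plan : Measure (Space d × Space d × Space d) :=
  (6 : ℝ≥0∞)⁻¹ • ((lam d).map (fun x => (x, F1.Y x, F1.Z x))
    + (lam d).map (fun x => (x, F2.Y x, F2.Z x))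
    + (lam d).map (fun x => (F1.Y x, F1.Z x, x))
    + (lam d).map (fun x => (F1.Z x, x, F1.Y x))
    + (lam d).map (fun x => (F2.Y x, F2.Z x, x))
    + (lam d).map (fun x => (F2.Z x, x, F2.Y x)))

lemma plan_mem : plan F1 F2 ∈ couplings (mu F1 F2) := by
  have y1 := measY F1
  have z1 := measZ F1
  have y2 := measY F2
  have z2 := measZ F2
  have g1 : Measurable (fun x => (x, F1.Y x, F1.Z x)) := measurable_id.prodMk (y1.prodMk z1)
  have g2 : Measurable (fun x => (x, F2.Y x, F2.Z x)) := measurable_id.prodMk (y2.prodMk z2)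
  have g3 : Measurable (fun x => (F1.Y x, F1.Z x, x)) := y1.prodMk (z1.prodMk measurable_id)
  have g4 : Measurable (fun x => (F1.Z x, x, F1.Y x)) := z1.prodMk (measurable_id.prodMk y1)
  have g5 : Measurable (fun x => (F2.Y x, F2.Z x, x)) := y2.prodMk (z2.prodMk measurable_id)
  have g6 : Measurable (fun x => (F2.Z x, x, F2.Y x)) := z2.prodMk (measurable_id.prodMk y2)
  have f1 : Measurable fun p : Space d × Space d × Space d => p.1 := measurable_fst
  have f2 : Measurable fun p : Space d × Space d × Space d => p.2.1 :=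
    measurable_fst.comp measurable_snd
  have f3 : Measurable fun p : Space d × Space d × Space d => p.2.2 :=
    measurable_snd.comp measurable_snd
  have expand : ∀ f : Space d × Space d × Space d → Space d, Measurable f →
      (plan F1 F2).map f = (6 : ℝ≥0∞)⁻¹ • ((lam d).map (fun x => f (x, F1.Y x, F1.Z x))
        + (lam d).map (fun x => f (x, F2.Y x, F2.Z x))
        + (lam d).map (fun x => f (F1.Y x, F1.Z x, x))
        + (lam d).map (fun x => f (F1.Z x, x, F1.Y x))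
        + (lam d).map (fun x => f (F2.Y x, F2.Z x, x))
        + (lam d).map (fun x => f (F2.Z x, x, F2.Y x))) := by
    intro f hf
    rw [plan, Measure.map_smul]
    rw [Measure.map_add _ _ hf, Measure.map_add _ _ hf, Measure.map_add _ _ hf,
      Measure.map_add _ _ hf, Measure.map_add _ _ hf]
    rw [Measure.map_map hf g1, Measure.map_map hf g2, Measure.map_map hf g3,
      Measure.map_map hf g4, Measure.map_map hf g5, Measure.map_map hf g6]
    rfl
  have hid : (lam d).map (fun x => x) = lam d := Measure.map_id'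
  have k1 : (plan F1 F2).map (fun p => p.1) = mu F1 F2 := by
    rw [expand _ f1]
    simp only [hid]
    rw [mu]
  have k2 : (plan F1 F2).map (fun p => p.2.1) = mu F1 F2 := by
    rw [expand _ f2]
    simp only [hid]
    rw [mu]
    congr 1
    abel
  have k3 : (plan F1 F2).map (fun p => p.2.2) = mu F1 F2 := by
    rw [expand _ f3]
    simp only [hid]
    rw [mu]
    congr 1
    abel
  refine ⟨?_, k1, k2, k3⟩
  constructor
  have := congrArg (fun m : Measure (Space d) => m Set.univ) k1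
  rwa [Measure.map_apply f1 MeasurableSet.univ, Set.preimage_univ,
    measure_univ (μ := mu F1 F2)] at this

include h1 in
lemma tightU1 {x : Space d} (hx : ‖x‖ ≤ 1 / 1000000) :
    gcost x (F1.Y x) (F1.Z x) = U F1 F2 x + U F1 F2 (F1.Y x) + U F1 F2 (F1.Z x) := by
  rw [U_zero F1 F2 hx, U_Y1 h1 F1 F2 hx, U_Z1 h1 F1 F2 hx, tight_eq h1 F1 hx]

include h1 h2 h12 in
lemma tightU2 {x : Space d} (hx : ‖x‖ ≤ 1 / 1000000) :
    gcost x (F2.Y x) (F2.Z x) = U F1 F2 x + U F1 F2 (F2.Y x) + U F1 F2 (F2.Z x) := by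
  rw [U_zero F1 F2 hx, U_Y2 h1 h2 h12 F1 F2 hx, U_Z2 h1 h2 h12 F1 F2 hx, tight_eq h2 F2 hx]

include h1 h2 h12 in
lemma plan_cost : ∫⁻ p, gcost p.1 p.2.1 p.2.2 ∂(plan F1 F2)
    = 3 * ∫⁻ p, U F1 F2 p ∂(mu F1 F2) := by
  have y1 := measY F1
  have z1 := measZ F1
  have y2 := measY F2
  have z2 := measZ F2
  have g1 : Measurable (fun x => (x, F1.Y x, F1.Z x)) := measurable_id.prodMk (y1.prodMk z1)
  have g2 : Measurable (fun x => (x, F2.Y x, F2.Z x)) := measurable_id.prodMk (y2.prodMk z2)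
  have g3 : Measurable (fun x => (F1.Y x, F1.Z x, x)) := y1.prodMk (z1.prodMk measurable_id)
  have g4 : Measurable (fun x => (F1.Z x, x, F1.Y x)) := z1.prodMk (measurable_id.prodMk y1)
  have g5 : Measurable (fun x => (F2.Y x, F2.Z x, x)) := y2.prodMk (z2.prodMk measurable_id)
  have g6 : Measurable (fun x => (F2.Z x, x, F2.Y x)) := z2.prodMk (measurable_id.prodMk y2)
  have hc := measurable_gcost (d := d)
  have hU := measurable_U F1 F2
  rw [plan, lintegral_smul_measure]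
  simp only [lintegral_add_measure]
  rw [lintegral_map hc g1, lintegral_map hc g2, lintegral_map hc g3, lintegral_map hc g4,
    lintegral_map hc g5, lintegral_map hc g6]
  have r3 : ∀ x, gcost (F1.Y x) (F1.Z x) x = gcost x (F1.Y x) (F1.Z x) := fun x =>
    gcost_rot' _ _ _
  have r4 : ∀ x, gcost (F1.Z x) x (F1.Y x) = gcost x (F1.Y x) (F1.Z x) := fun x => by
    rw [gcost_rot, gcost_swap]
  have r5 : ∀ x, gcost (F2.Y x) (F2.Z x) x = gcost x (F2.Y x) (F2.Z x) := fun x =>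
    gcost_rot' _ _ _
  have r6 : ∀ x, gcost (F2.Z x) x (F2.Y x) = gcost x (F2.Y x) (F2.Z x) := fun x => by
    rw [gcost_rot, gcost_swap]
  simp only [r3, r4, r5, r6]
  have s1 : ∫⁻ x, gcost x (F1.Y x) (F1.Z x) ∂(lam d) = ∫⁻ x, U F1 F2 x ∂(lam d)
      + ∫⁻ x, U F1 F2 (F1.Y x) ∂(lam d) + ∫⁻ x, U F1 F2 (F1.Z x) ∂(lam d) := by
    have q : Measurable fun x => U F1 F2 x + U F1 F2 (F1.Y x) := hU.add (hU.comp y1)
    rw [← lintegral_add_left hU, ← lintegral_add_left q]
    apply lintegral_congr_ae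
    filter_upwards [lam_ae (d := d)] with x hx
    exact tightU1 F1 F2 h1 hx
  have s2 : ∫⁻ x, gcost x (F2.Y x) (F2.Z x) ∂(lam d) = ∫⁻ x, U F1 F2 x ∂(lam d)
      + ∫⁻ x, U F1 F2 (F2.Y x) ∂(lam d) + ∫⁻ x, U F1 F2 (F2.Z x) ∂(lam d) := by
    have q : Measurable fun x => U F1 F2 x + U F1 F2 (F2.Y x) := hU.add (hU.comp y2)
    rw [← lintegral_add_left hU, ← lintegral_add_left q]
    apply lintegral_congr_ae
    filter_upwards [lam_ae (d := d)] with x hx
    exact tightU2 F1 F2 h1 h2 h12 hx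
  rw [s1, s2, lintegral_mu F1 F2 hU, smul_eq_mul]
  ring

lemma coulombCost_eq (x y z : Space d) : coulombCost x y z = gcost x y z := rfl

include h1 h2 h12 in
lemma kantorovich_eq : kantorovichValue (mu F1 F2) = 3 * ∫⁻ p, U F1 F2 p ∂(mu F1 F2) := by
  apply le_antisymm
  · rw [← plan_cost F1 F2 h1 h2 h12]
    exact iInf₂_le _ (plan_mem F1 F2)
  · exact le_iInf₂ fun π hπ => lower_bound F1 F2 h1 h2 h12 hπ

include h1 h2 h12 in
lemma kantorovich_lt_top : kantorovichValue (mu F1 F2) < ∞ := by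
  rw [kantorovich_eq F1 F2 h1 h2 h12]
  exact ENNReal.mul_lt_top (by norm_num) (lintegral_U_ne_top F1 F2 h1 h2 h12).lt_top

lemma mu_apply {B : Set (Space d)} (hB : MeasurableSet B) :
    mu F1 F2 B = 6⁻¹ * (lam d B + lam d B + lam d (F1.Y ⁻¹' B) + lam d (F1.Z ⁻¹' B)
      + lam d (F2.Y ⁻¹' B) + lam d (F2.Z ⁻¹' B)) := by
  rw [mu, Measure.smul_apply, smul_eq_mul]
  simp only [Measure.add_apply]
  rw [Measure.map_apply (measY F1) hB, Measure.map_apply (measZ F1) hB,
    Measure.map_apply (measY F2) hB, Measure.map_apply (measZ F2) hB]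

lemma lam_eq_zero_of {B : Set (Space d)} (h : ∀ x, ‖x‖ ≤ 1 / 1000000 → x ∉ B) :
    lam d B = 0 := by
  have : ∀ᵐ x ∂(lam d), x ∉ B := by
    filter_upwards [lam_ae (d := d)] with x hx
    exact h x hx
  rw [ae_iff] at this
  simpa using this

lemma lam_le_of {A B : Set (Space d)} (h : ∀ x, ‖x‖ ≤ 1 / 1000000 → x ∈ A → x ∈ B) :
    lam d A ≤ lam d B := by
  apply measure_mono_ae
  filter_upwards [lam_ae (d := d)] with x hx
  exact h x hx

/-- If a map preserving `mu` agrees with `F.Y` on a set of central points, that set is null,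
because `mu` gives to the image of the set at most half of the mass of the set itself. -/
lemma null_of_agree {e : Space d} (F : Family e) (T : Space d → Space d) (hT : Measurable T)
    (hmap : (mu F1 F2).map T = mu F1 F2)
    (hcount : ∀ A, MeasurableSet A →
      mu F1 F2 (F.Y '' ball0 d ∩ F.P ⁻¹' A) ≤ 6⁻¹ * lam d A) :
    ∀ᵐ x ∂(lam d), T x ≠ F.Y x := by
  set A : Set (Space d) := {x | x ∈ ball0 d ∧ T x = F.Y x} with hA
  have hAm : MeasurableSet A :=
    measurableSet_ball0.inter (measurableSet_eq_fun hT (measY F))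
  set B : Set (Space d) := F.Y '' ball0 d ∩ F.P ⁻¹' A with hB
  have hBm : MeasurableSet B :=
    ((isCompact_ball0.image F.contY).measurableSet).inter (measP F hAm)
  have hsub : A ⊆ T ⁻¹' B := by
    rintro x ⟨hx, hTx⟩
    refine ⟨⟨x, hx, hTx.symm⟩, ?_⟩
    change F.P (T x) ∈ A
    rw [hTx, F.PY x (mem_ball0.mp hx)]
    exact ⟨hx, hTx⟩
  have i1 : mu F1 F2 A ≤ 6⁻¹ * lam d A :=
    calc mu F1 F2 A ≤ mu F1 F2 (T ⁻¹' B) := measure_mono hsub
      _ = (mu F1 F2).map T B := (Measure.map_apply hT hBm).symm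
      _ = mu F1 F2 B := by rw [hmap]
      _ ≤ 6⁻¹ * lam d A := hcount A hAm
  have i2 : 6⁻¹ * (lam d A + lam d A) ≤ mu F1 F2 A := by
    rw [mu_apply F1 F2 hAm]
    exact mul_le_mul_of_nonneg_left
      (le_add_right (le_add_right (le_add_right (le_add_right le_rfl)))) zero_le
  have i3 : (6 : ℝ≥0∞)⁻¹ * (lam d A + lam d A) ≤ 6⁻¹ * lam d A := i2.trans i1
  have h6 : (6 : ℝ≥0∞)⁻¹ ≠ 0 := ENNReal.inv_ne_zero.mpr (by norm_num)
  have h6' : (6 : ℝ≥0∞)⁻¹ ≠ ∞ := ENNReal.inv_ne_top.mpr (by norm_num)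
  have i4 : lam d A + lam d A ≤ lam d A := (ENNReal.mul_le_mul_iff_right h6 h6').mp i3
  have hfin : lam d A ≠ ∞ := measure_ne_top _ _
  have i5 : lam d A = 0 := by
    have : lam d A + lam d A ≤ lam d A + 0 := by rwa [add_zero]
    exact nonpos_iff_eq_zero.mp ((ENNReal.add_le_add_iff_left hfin).mp this)
  have i6 : ∀ᵐ x ∂(lam d), x ∉ A := by
    rw [ae_iff]
    simpa using i5
  filter_upwards [i6, lam_ae (d := d)] with x h1 h2 h3
  exact h1 ⟨mem_ball0.mpr h2, h3⟩

lemma far_ne {c c' p q : Space d} (h : ‖p - c‖ ≤ 1 / 200) (h' : ‖q - c'‖ ≤ 1 / 200)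
    (hc : 1 ≤ ‖c - c'‖) : p ≠ q := by
  rintro rfl
  have : c - c' = (p - c') - (p - c) := by abel
  have i := norm_sub_le (p - c') (p - c)
  rw [← this] at i
  linarith

include h1 h2 h12 in
lemma count1 (A : Set (Space d)) (hA : MeasurableSet A) :
    mu F1 F2 (F1.Y '' ball0 d ∩ F1.P ⁻¹' A) ≤ 6⁻¹ * lam d A := by
  have hBm : MeasurableSet (F1.Y '' ball0 d ∩ F1.P ⁻¹' A) :=
    ((isCompact_ball0.image F1.contY).measurableSet).inter (measP F1 hA)
  have a := (norm_sub_orth h1 h2 h12).1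
  have b := (norm_add_orth h1 h2 h12).1
  have z0 : lam d (F1.Y '' ball0 d ∩ F1.P ⁻¹' A) = 0 := by
    apply lam_eq_zero_of
    rintro x hx ⟨⟨y, hy, hxy⟩, -⟩
    refine far_ne (c := 0) (c' := e1) (p := x) (q := F1.Y y) (by simpa using hx.trans (by norm_num))
      (F1.stat y (mem_ball0.mp hy)).hy (by simp [h1]) hxy.symm
  have z1 : lam d (F1.Z ⁻¹' (F1.Y '' ball0 d ∩ F1.P ⁻¹' A)) = 0 := by
    apply lam_eq_zero_of
    rintro x hx ⟨⟨y, hy, hxy⟩, -⟩
    refine far_ne (c := -e1) (c' := e1) (p := F1.Z x) (q := F1.Y y)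
      (outerZ1 h1 F1 F2 hx).near (outerY1 h1 F1 F2 (mem_ball0.mp hy)).near ?_ hxy.symm
    have : -e1 - e1 = -((2 : ℝ) • e1) := by rw [two_smul]; abel
    rw [this, norm_neg, norm_smul, h1]
    norm_num
  have z2 : lam d (F2.Y ⁻¹' (F1.Y '' ball0 d ∩ F1.P ⁻¹' A)) = 0 := by
    apply lam_eq_zero_of
    rintro x hx ⟨⟨y, hy, hxy⟩, -⟩
    refine far_ne (c := e2) (c' := e1) (p := F2.Y x) (q := F1.Y y)
      (outerY2 h1 h2 h12 F1 F2 hx).near (outerY1 h1 F1 F2 (mem_ball0.mp hy)).near ?_ hxy.symm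
    rw [norm_sub_rev]
    linarith
  have z3 : lam d (F2.Z ⁻¹' (F1.Y '' ball0 d ∩ F1.P ⁻¹' A)) = 0 := by
    apply lam_eq_zero_of
    rintro x hx ⟨⟨y, hy, hxy⟩, -⟩
    refine far_ne (c := -e2) (c' := e1) (p := F2.Z x) (q := F1.Y y)
      (outerZ2 h1 h2 h12 F1 F2 hx).near (outerY1 h1 F1 F2 (mem_ball0.mp hy)).near ?_ hxy.symm
    rw [norm_sub_rev, sub_neg_eq_add]
    linarith
  have z4 : lam d (F1.Y ⁻¹' (F1.Y '' ball0 d ∩ F1.P ⁻¹' A)) ≤ lam d A := by
    apply lam_le_of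
    rintro x hx ⟨-, h⟩
    have : F1.P (F1.Y x) ∈ A := h
    rwa [F1.PY x hx] at this
  rw [mu_apply F1 F2 hBm, z0, z1, z2, z3]
  simp only [add_zero, zero_add]
  gcongr

include h1 h2 h12 in
lemma count2 (A : Set (Space d)) (hA : MeasurableSet A) :
    mu F1 F2 (F2.Y '' ball0 d ∩ F2.P ⁻¹' A) ≤ 6⁻¹ * lam d A := by
  have hBm : MeasurableSet (F2.Y '' ball0 d ∩ F2.P ⁻¹' A) :=
    ((isCompact_ball0.image F2.contY).measurableSet).inter (measP F2 hA)
  have a := (norm_sub_orth h1 h2 h12).1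
  have b := (norm_add_orth h1 h2 h12).1
  have z0 : lam d (F2.Y '' ball0 d ∩ F2.P ⁻¹' A) = 0 := by
    apply lam_eq_zero_of
    rintro x hx ⟨⟨y, hy, hxy⟩, -⟩
    refine far_ne (c := 0) (c' := e2) (p := x) (q := F2.Y y) (by simpa using hx.trans (by norm_num))
      (F2.stat y (mem_ball0.mp hy)).hy (by simp [h2]) hxy.symm
  have z1 : lam d (F2.Z ⁻¹' (F2.Y '' ball0 d ∩ F2.P ⁻¹' A)) = 0 := by
    apply lam_eq_zero_of
    rintro x hx ⟨⟨y, hy, hxy⟩, -⟩
    refine far_ne (c := -e2) (c' := e2) (p := F2.Z x) (q := F2.Y y)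
      (outerZ2 h1 h2 h12 F1 F2 hx).near (outerY2 h1 h2 h12 F1 F2 (mem_ball0.mp hy)).near ?_
      hxy.symm
    have : -e2 - e2 = -((2 : ℝ) • e2) := by rw [two_smul]; abel
    rw [this, norm_neg, norm_smul, h2]
    norm_num
  have z2 : lam d (F1.Y ⁻¹' (F2.Y '' ball0 d ∩ F2.P ⁻¹' A)) = 0 := by
    apply lam_eq_zero_of
    rintro x hx ⟨⟨y, hy, hxy⟩, -⟩
    refine far_ne (c := e1) (c' := e2) (p := F1.Y x) (q := F2.Y y)
      (outerY1 h1 F1 F2 hx).near (outerY2 h1 h2 h12 F1 F2 (mem_ball0.mp hy)).near ?_ hxy.symm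
    linarith
  have z3 : lam d (F1.Z ⁻¹' (F2.Y '' ball0 d ∩ F2.P ⁻¹' A)) = 0 := by
    apply lam_eq_zero_of
    rintro x hx ⟨⟨y, hy, hxy⟩, -⟩
    refine far_ne (c := -e1) (c' := e2) (p := F1.Z x) (q := F2.Y y)
      (outerZ1 h1 F1 F2 hx).near (outerY2 h1 h2 h12 F1 F2 (mem_ball0.mp hy)).near ?_ hxy.symm
    rw [norm_sub_rev, sub_neg_eq_add, add_comm]
    linarith
  have z4 : lam d (F2.Y ⁻¹' (F2.Y '' ball0 d ∩ F2.P ⁻¹' A)) ≤ lam d A := by
    apply lam_le_of
    rintro x hx ⟨-, h⟩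
    have : F2.P (F2.Y x) ∈ A := h
    rwa [F2.PY x hx] at this
  rw [mu_apply F1 F2 hBm, z0, z1, z2, z3]
  simp only [add_zero, zero_add]
  gcongr

end

end Vale.Agent.P121
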