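import Mathlib
import Vale.Agent.P121.Meas

/-!
No Monge plan is optimal for the counterexample measure.
-/

namespace Vale.Agent.P121

open scoped RealInnerProductSpace NNReal ENNReal
open MeasureTheory

variable {d : ℕ}

section

variable {e1 e2 : Space d} (F1 : Family e1) (F2 : Family e2)
  (h1 : ‖e1‖ = 1) (h2 : ‖e2‖ = 1) (h12 : ⟪e1, e2⟫ = 0)

include h1 h2 h12 in
/-- For an optimal Monge plan the cost is almost everywhere the sum of the potentials. -/
lemma ae_tight {T₂ T₃ : Space d → Space d} (hm2 : Measurable T₂) (hm3 : Measurable T₃)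
    (hp2 : (mu F1 F2).map T₂ = mu F1 F2) (hp3 : (mu F1 F2).map T₃ = mu F1 F2)
    (a2 : ∀ᵐ x ∂(mu F1 F2), Pt F1 F2 (T₂ x)) (a3 : ∀ᵐ x ∂(mu F1 F2), Pt F1 F2 (T₃ x))
    (hopt : ∫⁻ x, gcost x (T₂ x) (T₃ x) ∂(mu F1 F2) = 3 * ∫⁻ p, U F1 F2 p ∂(mu F1 F2)) :
    ∀ᵐ x ∂(mu F1 F2), U F1 F2 x + U F1 F2 (T₂ x) + U F1 F2 (T₃ x) = gcost x (T₂ x) (T₃ x) := by
  have hU := measurable_U F1 F2
  have hle : (fun x => U F1 F2 x + U F1 F2 (T₂ x) + U F1 F2 (T₃ x)) ≤ᵐ[mu F1 F2]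
      (fun x => gcost x (T₂ x) (T₃ x)) := by
    filter_upwards [mu_ae_supp F1 F2, a2, a3] with x b1 b2 b3
    exact main_ineq h1 h2 h12 F1 F2 b1 b2 b3
  have q1 : Measurable fun x => U F1 F2 (T₂ x) := hU.comp hm2
  have q2 : Measurable fun x => U F1 F2 (T₃ x) := hU.comp hm3
  have q3 : Measurable fun x => U F1 F2 x + U F1 F2 (T₂ x) := hU.add q1
  have hsum : ∫⁻ x, (U F1 F2 x + U F1 F2 (T₂ x) + U F1 F2 (T₃ x)) ∂(mu F1 F2)
      = 3 * ∫⁻ p, U F1 F2 p ∂(mu F1 F2) := by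
    rw [lintegral_add_left q3, lintegral_add_left hU]
    have j2 : ∫⁻ x, U F1 F2 (T₂ x) ∂(mu F1 F2) = ∫⁻ p, U F1 F2 p ∂(mu F1 F2) := by
      conv_rhs => rw [← hp2]
      exact (lintegral_map hU hm2).symm
    have j3 : ∫⁻ x, U F1 F2 (T₃ x) ∂(mu F1 F2) = ∫⁻ p, U F1 F2 p ∂(mu F1 F2) := by
      conv_rhs => rw [← hp3]
      exact (lintegral_map hU hm3).symm
    rw [j2, j3]
    ring
  have hcm : Measurable fun x => gcost x (T₂ x) (T₃ x) := by
    unfold gcost
    exact ((measurable_const.div (measurable_id.edist hm2)).add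
      (measurable_const.div (measurable_id.edist hm3))).add (measurable_const.div (hm2.edist hm3))
  exact ae_eq_of_ae_le_of_lintegral_le hle (by
      rw [hsum]
      exact ENNReal.mul_ne_top (by norm_num) (lintegral_U_ne_top F1 F2 h1 h2 h12))
    hcm.aemeasurable (by rw [hopt, hsum])

include h1 h2 h12 in
/-- No Monge plan is optimal for `mu`. -/
theorem not_hasOptimalMongePlan : ¬ HasOptimalMongePlan (mu F1 F2) := by
  rintro ⟨T₂, T₃, hM, hopt⟩
  have hm2 := hM.measurable₂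
  have hm3 := hM.measurable₃
  have hp2 := hM.map₂
  have hp3 := hM.map₃
  have a2 : ∀ᵐ x ∂(mu F1 F2), Pt F1 F2 (T₂ x) := by
    apply ae_of_ae_map hm2.aemeasurable
    rw [hp2]; exact mu_ae_supp F1 F2
  have a3 : ∀ᵐ x ∂(mu F1 F2), Pt F1 F2 (T₃ x) := by
    apply ae_of_ae_map hm3.aemeasurable
    rw [hp3]; exact mu_ae_supp F1 F2
  rw [kantorovich_eq F1 F2 h1 h2 h12] at hopt
  have heq := ae_tight F1 F2 h1 h2 h12 hm2 hm3 hp2 hp3 a2 a3 hopt
  have n1 := null_of_agree F1 F2 F1 T₂ hm2 hp2 (count1 F1 F2 h1 h2 h12)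
  have n2 := null_of_agree F1 F2 F1 T₃ hm3 hp3 (count1 F1 F2 h1 h2 h12)
  have n3 := null_of_agree F1 F2 F2 T₂ hm2 hp2 (count2 F1 F2 h1 h2 h12)
  have n4 := null_of_agree F1 F2 F2 T₃ hm3 hp3 (count2 F1 F2 h1 h2 h12)
  have b := lam_ae_of_mu_ae F1 F2 heq
  have b2 := lam_ae_of_mu_ae F1 F2 a2
  have b3 := lam_ae_of_mu_ae F1 F2 a3
  have hfalse : ∀ᵐ x ∂(lam d), False := by
    filter_upwards [n1, n2, n3, n4, lam_ae (d := d), b, b2, b3] with x m1 m2 m3 m4 hx he c2 c3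
    rcases (main_central h1 h2 h12 F1 F2 hx c2 c3).2 he with (h | h) | (h | h)
    · exact m1 h
    · exact m2 h
    · exact m3 h
    · exact m4 h
  rw [ae_iff] at hfalse
  simp only [not_false_eq_true, Set.ofPred_true, measure_univ] at hfalse
  exact one_ne_zero hfalse

end

/-- Lipschitz maps of Euclidean space increase the volume at most by a constant factor. -/
lemma volume_image_le {P : Space d → Space d} {L : ℝ≥0} (hP : LipschitzWith L P)
    (B : Set (Space d)) : volume (P '' B) ≤ (L : ℝ≥0∞) ^ d * volume B := by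
  have h := (hP.lipschitzOnWith (s := B)).hausdorffMeasure_image_le (d := (d : ℝ))
    (Nat.cast_nonneg d)
  rw [ENNReal.rpow_natCast] at h
  rw [← EuclideanSpace.euclideanHausdorffMeasure_eq_volume,
    Measure.euclideanHausdorffMeasure_def, Measure.smul_apply, Measure.smul_apply]
  calc _ ≤ _ := smul_le_smul_of_nonneg_left h (by positivity)
    _ = _ := by
      rw [ENNReal.smul_def, ENNReal.smul_def, smul_eq_mul, smul_eq_mul]
      ring

lemma map_le {G P : Space d → Space d} {L : ℝ≥0} (hG : Measurable G) (hP : LipschitzWith L P)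
    (hPG : ∀ x, ‖x‖ ≤ 1 / 1000000 → P (G x) = x) :
    (lam d).map G ≤ ((volume (ball0 d))⁻¹ * (L : ℝ≥0∞) ^ d) • volume := by
  apply Measure.le_intro
  intro B hB _
  rw [Measure.map_apply hG hB, lam, Measure.smul_apply, Measure.smul_apply,
    Measure.restrict_apply (hG hB), smul_eq_mul, smul_eq_mul, mul_assoc]
  gcongr
  refine (measure_mono ?_).trans (volume_image_le hP B)
  rintro x ⟨hx, hxb⟩
  exact ⟨G x, hx, hPG x (mem_ball0.mp hxb)⟩

lemma lam_le : lam d ≤ (volume (ball0 d))⁻¹ • volume := by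
  apply Measure.le_intro
  intro B hB _
  rw [lam, Measure.smul_apply, Measure.smul_apply, smul_eq_mul, smul_eq_mul]
  exact mul_le_mul_of_nonneg_left (Measure.restrict_apply_le _ _) zero_le

/-- The density of the counterexample is bounded. -/
lemma mu_le {e1 e2 : Space d} (F1 : Family e1) (F2 : Family e2) :
    ∃ C : ℝ≥0, mu F1 F2 ≤ C • (volume : Measure (Space d)) := by
  set c : ℝ≥0∞ := (volume (ball0 d))⁻¹ with hc
  have hcfin : c ≠ ∞ := ENNReal.inv_ne_top.mpr volume_ball0_ne_zero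
  set D : ℝ≥0∞ := c + c * (F1.LP : ℝ≥0∞) ^ d + c * (F1.LQ : ℝ≥0∞) ^ d
    + c * (F2.LP : ℝ≥0∞) ^ d + c * (F2.LQ : ℝ≥0∞) ^ d with hD
  have hpow : ∀ L : ℝ≥0, c * (L : ℝ≥0∞) ^ d ≠ ∞ := fun L =>
    ENNReal.mul_ne_top hcfin (ENNReal.pow_ne_top ENNReal.coe_ne_top)
  have hDfin : D ≠ ∞ := by
    rw [hD]
    simp only [ne_eq, ENNReal.add_eq_top, not_or]
    exact ⟨⟨⟨⟨hcfin, hpow _⟩, hpow _⟩, hpow _⟩, hpow _⟩
  have m0 := lam_le (d := d)
  have m1 := map_le (measY F1) F1.lipP F1.PY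
  have m2 := map_le (measZ F1) F1.lipQ F1.QZ
  have m3 := map_le (measY F2) F2.lipP F2.PY
  have m4 := map_le (measZ F2) F2.lipQ F2.QZ
  refine ⟨(6⁻¹ * (D + c)).toNNReal, ?_⟩
  have h6' : (6 : ℝ≥0∞)⁻¹ ≠ ∞ := ENNReal.inv_ne_top.mpr (by norm_num)
  have htop : 6⁻¹ * (D + c) ≠ ∞ :=
    ENNReal.mul_ne_top h6' (ENNReal.add_ne_top.mpr ⟨hDfin, hcfin⟩)
  apply Measure.le_intro
  intro B hB _
  have k0 : lam d B ≤ c * volume B := m0 B
  have k1 : (lam d).map F1.Y B ≤ c * (F1.LP : ℝ≥0∞) ^ d * volume B := m1 B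
  have k2 : (lam d).map F1.Z B ≤ c * (F1.LQ : ℝ≥0∞) ^ d * volume B := m2 B
  have k3 : (lam d).map F2.Y B ≤ c * (F2.LP : ℝ≥0∞) ^ d * volume B := m3 B
  have k4 : (lam d).map F2.Z B ≤ c * (F2.LQ : ℝ≥0∞) ^ d * volume B := m4 B
  rw [mu, Measure.smul_apply, Measure.smul_apply, ENNReal.smul_def, ENNReal.coe_toNNReal htop,
    smul_eq_mul, smul_eq_mul, mul_assoc]
  refine mul_le_mul_of_nonneg_left ?_ zero_le
  simp only [Measure.add_apply]
  calc _ ≤ c * volume B + c * volume B + c * (F1.LP : ℝ≥0∞) ^ d * volume B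
        + c * (F1.LQ : ℝ≥0∞) ^ d * volume B + c * (F2.LP : ℝ≥0∞) ^ d * volume B
        + c * (F2.LQ : ℝ≥0∞) ^ d * volume B :=
        add_le_add (add_le_add (add_le_add (add_le_add (add_le_add k0 k0) k1) k2) k3) k4
    _ = (D + c) * volume B := by
        rw [hD]
        ring

/-- In every dimension `d ≥ 2` there is a compactly supported probability measure with bounded
density and finite Kantorovich value, but without an optimal Monge plan. -/
theorem exists_no_optimal_monge (hd : 2 ≤ d) : ∃ μ : Measure (Space d),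
    IsProbabilityMeasure μ ∧ μ ≪ volume ∧ (∃ C : ℝ≥0, μ ≤ C • volume) ∧
    (∃ K : Set (Space d), IsCompact K ∧ μ Kᶜ = 0) ∧
    kantorovichValue μ < ∞ ∧ ¬ HasOptimalMongePlan μ := by
  set i0 : Fin d := ⟨0, by omega⟩ with hi0
  set i1 : Fin d := ⟨1, by omega⟩ with hi1
  have hne : i0 ≠ i1 := by
    rw [hi0, hi1]
    intro h
    simp at h
  set e1 : Space d := EuclideanSpace.single i0 (1 : ℝ) with he1
  set e2 : Space d := EuclideanSpace.single i1 (1 : ℝ) with he2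
  have h1 : ‖e1‖ = 1 := by rw [he1]; simp
  have h2 : ‖e2‖ = 1 := by rw [he2]; simp
  have h12 : ⟪e1, e2⟫ = 0 := by
    rw [he1, he2]
    simp [EuclideanSpace.inner_single_left, hne]
  obtain ⟨F1⟩ := exists_family h1
  obtain ⟨F2⟩ := exists_family h2
  obtain ⟨C, hC⟩ := mu_le F1 F2
  refine ⟨mu F1 F2, inferInstance, ?_, ⟨C, hC⟩, ⟨supp F1 F2, isCompact_supp F1 F2, ?_⟩,
    kantorovich_lt_top F1 F2 h1 h2 h12, not_hasOptimalMongePlan F1 F2 h1 h2 h12⟩
  · exact (Measure.absolutelyContinuous_of_le hC).trans (Measure.smul_absolutelyContinuous)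
  · have := mu_ae_supp F1 F2
    rw [ae_iff] at this
    exact this

end Vale.Agent.P121
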